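import Crest.Agent.EntDual.Defs

namespace Crest.Agent.EntDual

open Finset

variable {H B : ℕ} (P : Params H B) {z : Type} [Fintype z] [DecidableEq z] [Nonempty z]
  (F : Fam H P.g P.M z)

theorem card_R (l : ℕ) : (R P F l).card ≤ P.N l := by
  induction l with
  | zero => simp [R, P.N0]
  | succ l ih =>
    rw [R, P.hN]
    refine card_image_le.trans ?_
    rw [card_product, card_univ, Fintype.card_fin]
    exact Nat.mul_le_mul_right _ ih

/-- For a set of density at least `κ l` fewer than `I l` of the `c l i` nearly miss it. -/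
theorem card_miss (l : ℕ) (hl : l < H) (D : Finset z)
    (hD : P.κ l * Fintype.card z ≤ (D.card : ℝ)) :
    (univ.filter (fun i => ((D ∩ F.c l i).card : ℝ) < P.κ (l + 1) * Fintype.card z)).card
      ≤ P.I l := by
  by_contra hcon
  push Not at hcon
  obtain ⟨s, hs, hsc⟩ := exists_subset_card_eq hcon.le
  have hz : (0 : ℝ) < Fintype.card z := by exact_mod_cast Fintype.card_pos
  -- D is covered
  have hcov : D ⊆ (s.biUnion (fun i => D ∩ F.c l i)) ∪ univ.filter (fun j => ∀ i ∈ s, j ∉ F.c l i) := by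
    intro j hj
    by_cases h : ∀ i ∈ s, j ∉ F.c l i
    · exact mem_union_right _ (by simpa using h)
    · push Not at h
      obtain ⟨i, hi, hij⟩ := h
      exact mem_union_left _ (mem_biUnion.2 ⟨i, hi, mem_inter.2 ⟨hj, hij⟩⟩)
  have h1 : (D.card : ℝ) ≤ (s.biUnion (fun i => D ∩ F.c l i)).card
      + (univ.filter (fun j => ∀ i ∈ s, j ∉ F.c l i)).card := by
    exact_mod_cast (card_le_card hcov).trans (card_union_le _ _)
  have hne : s.Nonempty := by
    rw [← card_pos, hsc]; exact P.Ipos l
  have h2 : ((s.biUnion (fun i => D ∩ F.c l i)).card : ℝ)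
      < s.card * (P.κ (l + 1) * Fintype.card z) := by
    calc ((s.biUnion (fun i => D ∩ F.c l i)).card : ℝ)
        ≤ ∑ i ∈ s, ((D ∩ F.c l i).card : ℝ) := by exact_mod_cast card_biUnion_le
      _ < ∑ i ∈ s, (P.κ (l + 1) * Fintype.card z) := by
          refine sum_lt_sum_of_nonempty hne fun i hi => ?_
          have := hs hi
          simpa using this
      _ = _ := by rw [sum_const, nsmul_eq_mul]
  rw [F.hun l hl s, hsc] at h1
  rw [hsc] at h2
  have h3 := P.hpow l
  have h4 := P.hκ l
  have h5 : (1 - 1 / (P.g l : ℝ)) ^ (P.I l) * Fintype.card z ≤ P.κ l / 2 * Fintype.card z :=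
    mul_le_mul_of_nonneg_right h3 hz.le
  have h6 : (P.I l : ℝ) * (P.κ (l + 1) * Fintype.card z) = P.κ l / 2 * Fintype.card z := by
    rw [← h4]; ring
  have h7 : P.κ l / 2 * Fintype.card z + P.κ l / 2 * Fintype.card z = P.κ l * Fintype.card z := by ring
  linarith

theorem mem_R_succ {l : ℕ} {C : Finset z} (hC : C ∈ R P F l) (i : Fin (P.M l)) :
    C ∩ F.c l i ∈ R P F (l + 1) := by
  rw [R]
  exact mem_image.2 ⟨(C, i), mem_product.2 ⟨hC, mem_univ _⟩, rfl⟩

open Classical in
/-- at most `N l * I l` indices are bad. -/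
theorem card_bad (S : Finset z) (l : ℕ) (hl : l < H) :
    (univ.filter (fun i => BadI P F S l i)).card ≤ P.N l * P.I l := by
  have hsub : univ.filter (fun i => BadI P F S l i) ⊆
      (R P F l).biUnion (fun C =>
        if P.κ l * Fintype.card z ≤ ((C \ S).card : ℝ) then
          univ.filter (fun i => (((C \ S) ∩ F.c l i).card : ℝ) < P.κ (l + 1) * Fintype.card z)
        else ∅) := by
    intro i hi
    rw [mem_filter] at hi
    obtain ⟨C, hC, hbad⟩ := hi.2
    rw [mem_biUnion]
    refine ⟨C, hC.1, ?_⟩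
    rw [if_pos hC.2, mem_filter]
    refine ⟨mem_univ _, ?_⟩
    by_contra hcon
    push Not at hcon
    refine hbad ⟨mem_R_succ P F hC.1 i, ?_⟩
    have : (C \ S) ∩ F.c l i = (C ∩ F.c l i) \ S := by
      ext j; simp only [mem_inter, mem_sdiff]; tauto
    rwa [this] at hcon
  refine (card_le_card hsub).trans ?_
  refine (card_biUnion_le_card_mul _ _ (P.I l) ?_).trans (Nat.mul_le_mul_right _ (card_R P F l))
  intro C hC
  split_ifs with h
  · exact card_miss P F l hl _ h
  · simp

end Crest.Agent.EntDual
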