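import Crest.Agent.EntDual.Defs

namespace Crest.Agent.EntDual

private lemma famEx_card_ne (n : ℕ) (hn : 1 ≤ n) :
    (((Finset.univ : Finset (Fin n)).filter (fun x : Fin _ => (x : ℕ) ≠ 0)).card : ℝ)
      = (1 - 1 / (n : ℝ)) * n := by
  obtain ⟨m, rfl⟩ : ∃ m, n = m + 1 := ⟨n - 1, by omega⟩
  have h1 : ((Finset.univ : Finset (Fin (m + 1))).filter (fun x : Fin _ => (x : ℕ) ≠ 0))
      = (Finset.univ : Finset (Fin (m + 1))).erase 0 := by
    ext x
    simp only [Finset.mem_filter, Finset.mem_univ, true_and, Finset.mem_erase, and_true, ne_eq]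
    rw [← Fin.val_eq_zero_iff]
  rw [h1, Finset.card_erase_of_mem (Finset.mem_univ _)]
  simp only [Finset.card_univ, Fintype.card_fin]
  have : ((m : ℝ) + 1) ≠ 0 := by positivity
  push_cast
  field_simp
  simp

private lemma famEx_card_eq (n : ℕ) (hn : 1 ≤ n) :
    ((Finset.univ : Finset (Fin n)).filter (fun x : Fin _ => (x : ℕ) = 0)).card = 1 := by
  obtain ⟨m, rfl⟩ : ∃ m, n = m + 1 := ⟨n - 1, by omega⟩
  rw [Finset.card_eq_one]
  refine ⟨0, ?_⟩
  ext x
  simp only [Finset.mem_filter, Finset.mem_univ, true_and, Finset.mem_singleton]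
  exact Fin.val_eq_zero_iff

/-- Existence of the family.  Take
`z := (p : Σ l : Fin H, Fin (M l)) → Fin (g p.1)` and
`c l i := {j | ((j ⟨⟨l, h⟩, i⟩ : Fin _) : ℕ) = 0}` for `h : l < H` (and anything, e.g. `∅`, for `¬ l < H`).
Cardinalities by `Fintype.card_piFinset` / `Fintype.card_pi`. -/
theorem exists_fam (H : ℕ) (g M : ℕ → ℕ) (hg : ∀ l, 1 ≤ g l) :
    ∃ (z : Type) (_ : Fintype z) (_ : DecidableEq z) (_ : Nonempty z), Nonempty (Fam H g M z) := by
  classical
  let ι : Type := Σ l : Fin H, Fin (M (l : ℕ))
  let G : ι → ℕ := fun p => g (p.1 : ℕ)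
  let z : Type := (p : ι) → Fin (G p)
  have hne : Nonempty z := ⟨fun p => ⟨0, hg _⟩⟩
  refine ⟨z, inferInstance, inferInstance, hne, ⟨?_⟩⟩
  have hcz : Fintype.card z = ∏ p : ι, G p := by
    show Fintype.card ((p : ι) → Fin (G p)) = _
    rw [Fintype.card_pi]
    simp
  let c : ∀ l : ℕ, Fin (M l) → Finset z := fun l i =>
    if h : l < H then
      Finset.univ.filter (fun j : z => ((j (⟨⟨l, h⟩, i⟩ : ι) : Fin _) : ℕ) = 0)
    else ∅
  refine ⟨c, ?_, ?_⟩
  · intro l hl i
    let p0 : ι := ⟨⟨l, hl⟩, i⟩
    have hc : c l i = Fintype.piFinset (fun p : ι =>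
        if p = p0 then (Finset.univ : Finset (Fin (G p))).filter (fun x : Fin _ => (x : ℕ) = 0)
        else Finset.univ) := by
      ext j
      simp only [c, dif_pos hl, Finset.mem_filter, Finset.mem_univ, true_and,
        ]
      constructor
      · intro h
        refine Fintype.mem_piFinset.2 (fun p => ?_)
        split_ifs with hp
        · subst hp
          simpa using h
        · exact Finset.mem_univ _
      · intro h
        have := Fintype.mem_piFinset.1 h p0
        simpa [p0] using this
    rw [hc, Fintype.card_piFinset, hcz]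
    have h1 : ∀ p : ι, (if p = p0 then (Finset.univ : Finset (Fin (G p))).filter
        (fun x : Fin _ => (x : ℕ) = 0) else Finset.univ).card = if p = p0 then 1 else G p := by
      intro p
      split_ifs with hp
      · exact famEx_card_eq _ (hg _)
      · simp
    rw [Finset.prod_congr rfl (fun p _ => h1 p)]
    rw [← Finset.mul_prod_erase Finset.univ _ (Finset.mem_univ p0),
      ← Finset.mul_prod_erase Finset.univ G (Finset.mem_univ p0)]
    simp only [if_true, one_mul]
    have h2 : G p0 = g l := rfl
    rw [h2]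
    congr 1
    apply Finset.prod_congr rfl
    intro p hp
    rw [if_neg (Finset.ne_of_mem_erase hp)]
  · intro l hl s
    let e : Fin (M l) → ι := fun i => ⟨⟨l, hl⟩, i⟩
    have he : Function.Injective e := by
      intro i i' h
      simp only [e] at h
      exact eq_of_heq (Sigma.mk.inj h).2
    have hc : Finset.univ.filter (fun j : z => ∀ i ∈ s, j ∉ c l i)
        = Fintype.piFinset (fun p : ι =>
        if p ∈ s.image e then (Finset.univ : Finset (Fin (G p))).filter (fun x : Fin _ => (x : ℕ) ≠ 0)
        else Finset.univ) := by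
      ext j
      simp only [c, dif_pos hl, Finset.mem_filter, Finset.mem_univ, true_and,
        ]
      constructor
      · intro h
        refine Fintype.mem_piFinset.2 (fun p => ?_)
        split_ifs with hp
        · obtain ⟨i, hi, rfl⟩ := Finset.mem_image.1 hp
          simpa using h i hi
        · exact Finset.mem_univ _
      · intro h i hi
        have := Fintype.mem_piFinset.1 h (e i)
        rw [if_pos (Finset.mem_image_of_mem e hi)] at this
        simpa using this
    rw [hc, Fintype.card_piFinset, hcz]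
    have h1 : ∀ p : ι, (((if p ∈ s.image e then (Finset.univ : Finset (Fin (G p))).filter
        (fun x : Fin _ => (x : ℕ) ≠ 0) else Finset.univ).card : ℕ) : ℝ)
          = (if p ∈ s.image e then (1 - 1 / (G p : ℝ)) else 1) * (G p : ℝ) := by
      intro p
      split_ifs with hp
      · exact famEx_card_ne _ (hg _)
      · simp
    push_cast
    rw [Finset.prod_congr rfl (fun p _ => h1 p), Finset.prod_mul_distrib]
    congr 1
    rw [Finset.prod_ite_mem, Finset.univ_inter, Finset.prod_image (fun a _ b _ h => he h)]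
    rw [Finset.prod_congr rfl (g := fun _ => (1 - 1 / (g l : ℝ))) (fun i _ => rfl)]
    rw [Finset.prod_const]

end Crest.Agent.EntDual
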