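import Crest.Agent.EntDual.Bad

namespace Crest.Agent.EntDual

open Finset

variable {H B : ℕ} (P : Params H B) {z : Type} [Fintype z] [DecidableEq z] [Nonempty z]
  (F : Fam H P.g P.M z)

theorem lev_le (S y : Finset z) : lev P F S y ≤ H := by
  classical
  exact Nat.find_min' _ (Or.inl le_rfl)

theorem hit_lev (S y : Finset z) : Hit P F S y (lev P F S y) := by
  classical
  exact Nat.find_spec (p := Hit P F S y) ⟨H, Or.inl le_rfl⟩

theorem lev_le_of_hit {S y : Finset z} {l : ℕ} (h : Hit P F S y l) : lev P F S y ≤ l := by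
  classical
  exact Nat.find_min' _ h

theorem lev_anti (S : Finset z) {y y' : Finset z} (h : y ⊆ y') : lev P F S y' ≤ lev P F S y := by
  apply lev_le_of_hit
  rcases hit_lev P F S y with h1 | ⟨C, hC, hCy⟩
  · exact Or.inl h1
  · exact Or.inr ⟨C, hC, hCy.trans h⟩

theorem w_bounds (hH : 0 < H) (S y : Finset z) : 0 ≤ w P F S y ∧ w P F S y ≤ 1 := by
  have hH' : (0 : ℝ) < H := by exact_mod_cast hH
  have h1 : (lev P F S y : ℝ) ≤ H := by exact_mod_cast lev_le P F S y
  have h2 : (lev P F S y : ℝ) / H ≤ 1 := (div_le_one hH').2 h1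
  have h3 : 0 ≤ (lev P F S y : ℝ) / H := by positivity
  unfold w
  constructor <;> linarith

theorem w_mono (hH : 0 < H) (S : Finset z) {y y' : Finset z} (h : y ⊆ y') :
    w P F S y ≤ w P F S y' := by
  have hH' : (0 : ℝ) < H := by exact_mod_cast hH
  have h1 : (lev P F S y' : ℝ) ≤ lev P F S y := by exact_mod_cast lev_anti P F S h
  have h2 : (lev P F S y' : ℝ) / H ≤ (lev P F S y : ℝ) / H := div_le_div_of_nonneg_right h1 hH'.le
  unfold w
  linarith

theorem w_univ (hH : 0 < H) (S : Finset z) (hS : 2 * S.card < Fintype.card z) :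
    w P F S univ = 1 := by
  have h0 : lev P F S univ ≤ 0 := by
    apply lev_le_of_hit
    refine Or.inr ⟨univ, ⟨by simp [R], ?_⟩, subset_univ _⟩
    rw [P.κ0]
    have h1 : (univ \ S).card = Fintype.card z - S.card := by
      rw [card_sdiff_of_subset (subset_univ _), card_univ]
    have h2 : S.card ≤ Fintype.card z := card_le_univ S
    rw [h1, Nat.cast_sub h2]
    have h3 : (2 : ℝ) * S.card < Fintype.card z := by exact_mod_cast hS
    linarith
  have h1 : lev P F S univ = 0 := by omega
  simp [w, h1]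

theorem w_self (hH : 0 < H) (S : Finset z) : w P F S S = 0 := by
  have hz : (0 : ℝ) < Fintype.card z := by exact_mod_cast Fintype.card_pos
  have h1 : H ≤ lev P F S S := by
    rcases hit_lev P F S S with h | ⟨C, hC, hCS⟩
    · exact h
    · exfalso
      have h2 := hC.2
      rw [sdiff_eq_empty_iff_subset.2 hCS] at h2
      have h3 := mul_pos (P.κpos (lev P F S S)) hz
      simp at h2
      linarith
  have h2 : lev P F S S = H := le_antisymm (lev_le P F S S) h1
  have hH' : (H : ℝ) ≠ 0 := by exact_mod_cast hH.ne'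
  simp [w, h2, hH']

open Classical in
/-- choice of a single index at level `l` which is good for most columns. -/
theorem exists_index (hH : 0 < H) (l : ℕ) (hl : l < H) {Col : Type} [Fintype Col]
    (ν : Col → ℝ) (f : Col → Finset z) (hν : ∀ c, 0 ≤ ν c) (hν1 : ∑ c, ν c ≤ 1) :
    ∃ i : Fin (P.M l), ∑ c, (if BadI P F (f c) l i then ν c else 0) ≤ 1 / (H : ℝ) ^ 2 := by
  by_contra hcon
  push Not at hcon
  have hH' : (0 : ℝ) < H := by exact_mod_cast hH
  haveI : Nonempty (Fin (P.M l)) := ⟨⟨0, P.Mpos l⟩⟩
  have h1 : (P.M l : ℝ) * (1 / (H : ℝ) ^ 2) <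
      ∑ i : Fin (P.M l), ∑ c, (if BadI P F (f c) l i then ν c else 0) := by
    calc (P.M l : ℝ) * (1 / (H : ℝ) ^ 2) = ∑ i : Fin (P.M l), (1 / (H : ℝ) ^ 2) := by
          rw [sum_const, card_univ, Fintype.card_fin, nsmul_eq_mul]
      _ < _ := sum_lt_sum_of_nonempty univ_nonempty fun i _ => hcon i
  rw [sum_comm] at h1
  have h2 : ∑ c, ∑ i : Fin (P.M l), (if BadI P F (f c) l i then ν c else 0)
      ≤ (P.N l * P.I l : ℕ) := by
    calc ∑ c, ∑ i : Fin (P.M l), (if BadI P F (f c) l i then ν c else 0)
        ≤ ∑ c, ν c * (P.N l * P.I l : ℕ) := by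
          refine sum_le_sum fun c _ => ?_
          rw [← sum_filter, sum_const, nsmul_eq_mul, mul_comm]
          refine mul_le_mul_of_nonneg_left ?_ (hν c)
          exact_mod_cast card_bad P F (f c) l hl
      _ = (∑ c, ν c) * (P.N l * P.I l : ℕ) := by rw [sum_mul]
      _ ≤ 1 * (P.N l * P.I l : ℕ) := mul_le_mul_of_nonneg_right hν1 (Nat.cast_nonneg _)
      _ = _ := one_mul _
  have h3 : ((H ^ 2 * (P.N l * P.I l) : ℕ) : ℝ) ≤ P.M l := by exact_mod_cast P.hM l
  have h4 : ((P.N l * P.I l : ℕ) : ℝ) ≤ (P.M l : ℝ) * (1 / (H : ℝ) ^ 2) := by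
    rw [mul_one_div, le_div_iff₀ (by positivity)]
    push_cast at h3 ⊢
    linarith
  linarith

open Classical in
theorem tside (hH : 0 < H) (m : ℕ) (ν : Finset z × (z → Fin m) → ℝ) (hν : ∀ c, 0 ≤ ν c)
    (hν1 : ∑ c, ν c ≤ 1) :
    ∃ S : Finset (z × Fin m), B * S.card ≤ Fintype.card z ∧
        ∀ u : z → Fin m,
          |∑ c, ν c * (w P F c.1 (univ.filter (fun j => c.2 j = u j))
            - w P F c.1 (univ.filter (fun j => c.2 j = u j ∧ (j, u j) ∈ S)))| ≤ 3 / H := by
  have hH' : (0 : ℝ) < H := by exact_mod_cast hH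
  have hex : ∀ l, ∃ i : Fin (P.M l), l < H →
      ∑ c, (if BadI P F c.1 l i then ν c else 0) ≤ 1 / (H : ℝ) ^ 2 := by
    intro l
    by_cases hl : l < H
    · obtain ⟨i, hi⟩ := exists_index P F hH l hl ν (fun c => c.1) hν hν1
      exact ⟨i, fun _ => hi⟩
    · exact ⟨⟨0, P.Mpos l⟩, fun h => absurd h hl⟩
  choose i hi using hex
  set μ : z × Fin m → ℝ := fun p => ∑ c, (if c.2 p.1 = p.2 then ν c else 0) with hμ
  have hμ0 : ∀ p, 0 ≤ μ p := fun p => sum_nonneg fun c _ => by split_ifs <;> simp [hν]
  have hμ1 : ∀ j, ∑ v, μ (j, v) ≤ 1 := by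
    intro j
    simp only [hμ]
    rw [sum_comm]
    simpa using hν1
  let Sl : ℕ → Finset (z × Fin m) := fun l =>
    univ.filter (fun p => p.1 ∈ F.c l (i l) ∧ 1 ≤ (H : ℝ) ^ 2 * P.N l * μ p)
  have hSl : ∀ l, (Sl l).card ≤ (F.c l (i l)).card * (H ^ 2 * P.N l) := by
    intro l
    have h1 : Sl l ⊆ (F.c l (i l)).biUnion (fun j =>
        (univ.filter (fun v : Fin m => 1 ≤ (H : ℝ) ^ 2 * P.N l * μ (j, v))).image (fun v => (j, v))) := by
      intro p hp
      rw [mem_filter] at hp
      rw [mem_biUnion]
      refine ⟨p.1, hp.2.1, mem_image.2 ⟨p.2, ?_, rfl⟩⟩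
      simpa using hp.2.2
    refine (card_le_card h1).trans (card_biUnion_le_card_mul _ _ _ fun j _ => card_image_le.trans ?_)
    have h2 : ((univ.filter (fun v : Fin m => 1 ≤ (H : ℝ) ^ 2 * P.N l * μ (j, v))).card : ℝ)
        ≤ (H : ℝ) ^ 2 * P.N l := by
      calc ((univ.filter (fun v : Fin m => 1 ≤ (H : ℝ) ^ 2 * P.N l * μ (j, v))).card : ℝ)
          = ∑ v ∈ univ.filter (fun v : Fin m => 1 ≤ (H : ℝ) ^ 2 * P.N l * μ (j, v)), (1 : ℝ) := by simp
        _ ≤ ∑ v ∈ univ.filter (fun v : Fin m => 1 ≤ (H : ℝ) ^ 2 * P.N l * μ (j, v)),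
              (H : ℝ) ^ 2 * P.N l * μ (j, v) := by
            refine sum_le_sum fun v hv => ?_
            simpa using (mem_filter.1 hv).2
        _ ≤ ∑ v, (H : ℝ) ^ 2 * P.N l * μ (j, v) := by
            refine sum_le_sum_of_subset_of_nonneg (filter_subset _ _) fun v _ _ => ?_
            have := hμ0 (j, v)
            positivity
        _ = (H : ℝ) ^ 2 * P.N l * ∑ v, μ (j, v) := by rw [mul_sum]
        _ ≤ (H : ℝ) ^ 2 * P.N l * 1 := mul_le_mul_of_nonneg_left (hμ1 j) (by positivity)
        _ = _ := mul_one _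
    exact_mod_cast h2
  refine ⟨(range H).biUnion Sl, ?_, ?_⟩
  · -- cardinality
    have h1 : H * (B * ((range H).biUnion Sl).card) ≤ H * Fintype.card z := by
      calc H * (B * ((range H).biUnion Sl).card)
          ≤ H * (B * ∑ l ∈ range H, (Sl l).card) :=
            Nat.mul_le_mul_left _ (Nat.mul_le_mul_left _ card_biUnion_le)
        _ = ∑ l ∈ range H, H * (B * (Sl l).card) := by rw [mul_sum, mul_sum]
        _ ≤ ∑ l ∈ range H, Fintype.card z := by
            refine sum_le_sum fun l hl => ?_
            have hl' := mem_range.1 hl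
            calc H * (B * (Sl l).card) ≤ H * (B * ((F.c l (i l)).card * (H ^ 2 * P.N l))) :=
                  Nat.mul_le_mul_left _ (Nat.mul_le_mul_left _ (hSl l))
              _ = (H * B * (H ^ 2 * P.N l)) * (F.c l (i l)).card := by ring
              _ ≤ P.g l * (F.c l (i l)).card := Nat.mul_le_mul_right _ (P.hg l)
              _ = Fintype.card z := F.hcard l hl' (i l)
        _ = H * Fintype.card z := by rw [sum_const, card_range, smul_eq_mul]
    exact Nat.le_of_mul_le_mul_left h1 hH
  · intro u
    set S := (range H).biUnion Sl with hS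
    set Y : Finset z × (z → Fin m) → Finset z := fun c => univ.filter (fun j => c.2 j = u j) with hY
    set Y' : Finset z × (z → Fin m) → Finset z :=
      fun c => univ.filter (fun j => c.2 j = u j ∧ (j, u j) ∈ S) with hY'
    have hYY : ∀ c, Y' c ⊆ Y c := by
      intro c j hj
      simp only [hY', hY, mem_filter] at hj ⊢
      exact ⟨hj.1, hj.2.1⟩
    have hgap0 : ∀ c, 0 ≤ w P F c.1 (Y c) - w P F c.1 (Y' c) := fun c =>
      sub_nonneg.2 (w_mono P F hH c.1 (hYY c))
    have hgap1 : ∀ c, w P F c.1 (Y c) - w P F c.1 (Y' c) ≤ 1 := fun c => by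
      have h1 := (w_bounds P F hH c.1 (Y c)).2
      have h2 := (w_bounds P F hH c.1 (Y' c)).1
      linarith
    have hex : ∀ c : Finset z × (z → Fin m), ∃ C, lev P F c.1 (Y c) < H →
        (Good P F c.1 (lev P F c.1 (Y c)) C ∧ C ⊆ Y c) := by
      intro c
      rcases hit_lev P F c.1 (Y c) with h | ⟨C, hC, hCy⟩
      · exact ⟨∅, fun h' => absurd h' (not_lt.2 h)⟩
      · exact ⟨C, fun _ => ⟨hC, hCy⟩⟩
    choose Cc hCc using hex
    set lv : Finset z × (z → Fin m) → ℕ := fun c => lev P F c.1 (Y c) with hlv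
    set p : ℕ → Finset z → ℝ := fun l C => ∑ c, (if lv c = l ∧ Cc c = C then ν c else 0) with hp
    -- pointwise bound
    have hpt : ∀ c, w P F c.1 (Y c) - w P F c.1 (Y' c) ≤ 1 / H
        + (if lv c < H ∧ (H : ℝ) ^ 2 * P.N (lv c) * p (lv c) (Cc c) < 1 then 1 else 0)
        + (if lv c < H ∧ BadI P F c.1 (lv c) (i (lv c)) then 1 else 0) := by
      intro c
      have hinv : (0 : ℝ) ≤ 1 / H := by positivity
      by_cases h1 : lv c < H
      · by_cases h2 : (H : ℝ) ^ 2 * P.N (lv c) * p (lv c) (Cc c) < 1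
        · rw [if_pos ⟨h1, h2⟩]
          have := hgap1 c
          split_ifs <;> linarith
        · rw [if_neg (fun h => h2 h.2)]
          by_cases h3 : BadI P F c.1 (lv c) (i (lv c))
          · rw [if_pos ⟨h1, h3⟩]
            have := hgap1 c
            linarith
          · rw [if_neg (fun h => h3 h.2)]
            obtain ⟨hg, hsub⟩ := hCc c h1
            have hg' : Good P F c.1 (lv c + 1) (Cc c ∩ F.c (lv c) (i (lv c))) := by
              by_contra h4
              exact h3 ⟨Cc c, hg, h4⟩
            have hsub' : Cc c ∩ F.c (lv c) (i (lv c)) ⊆ Y' c := by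
              intro j hj
              rw [mem_inter] at hj
              have hjY := hsub hj.1
              simp only [hY, mem_filter, mem_univ, true_and] at hjY
              simp only [hY', mem_filter, mem_univ, true_and]
              refine ⟨hjY, ?_⟩
              rw [hS, mem_biUnion]
              refine ⟨lv c, mem_range.2 h1, ?_⟩
              simp only [Sl, mem_filter, mem_univ, true_and]
              refine ⟨hj.2, ?_⟩
              push Not at h2
              refine h2.trans (mul_le_mul_of_nonneg_left ?_ (by positivity))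
              simp only [hp, hμ]
              refine sum_le_sum fun c' _ => ?_
              by_cases h5 : lv c' = lv c ∧ Cc c' = Cc c
              · rw [if_pos h5]
                have h6 := (hCc c' (show lv c' < H by rw [h5.1]; exact h1)).2
                have h7 : j ∈ Y c' := h6 (by rw [h5.2]; exact hj.1)
                simp only [hY, mem_filter, mem_univ, true_and] at h7
                rw [if_pos h7]
              · rw [if_neg h5]
                split_ifs <;> simp [hν]
            have h8 : lev P F c.1 (Y' c) ≤ lv c + 1 :=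
              lev_le_of_hit P F (Or.inr ⟨_, hg', hsub'⟩)
            have h9 : (lev P F c.1 (Y' c) : ℝ) ≤ lv c + 1 := by exact_mod_cast h8
            have h10 : (lev P F c.1 (Y' c) : ℝ) / H ≤ (lv c + 1) / H :=
              div_le_div_of_nonneg_right h9 hH'.le
            have h11 : ((lv c : ℝ) + 1) / H = lv c / H + 1 / H := add_div _ _ _
            simp only [w]
            have h12 : lev P F c.1 (Y c) = lv c := rfl
            rw [h12]
            linarith
      · have h2 : lv c = H := le_antisymm (lev_le P F c.1 (Y c)) (not_lt.1 h1)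
        have h3 : w P F c.1 (Y c) = 0 := by
          simp only [w]
          have h12 : lev P F c.1 (Y c) = lv c := rfl
          rw [h12, h2, div_self hH'.ne', sub_self]
        have h4 := (w_bounds P F hH c.1 (Y' c)).1
        rw [if_neg (fun h => h1 h.1), if_neg (fun h => h1 h.1), h3]
        linarith
    -- light columns
    have hlight : ∑ c, ν c * (if lv c < H ∧ (H : ℝ) ^ 2 * P.N (lv c) * p (lv c) (Cc c) < 1 then 1 else 0)
        ≤ 1 / H := by
      have h1 : ∀ c, ν c * (if lv c < H ∧ (H : ℝ) ^ 2 * P.N (lv c) * p (lv c) (Cc c) < 1 then (1 : ℝ) else 0)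
          = ∑ l ∈ range H, (if lv c = l ∧ (H : ℝ) ^ 2 * P.N l * p l (Cc c) < 1 then ν c else 0) := by
        intro c
        by_cases h : lv c < H
        · rw [sum_eq_single (lv c)]
          · by_cases h2 : (H : ℝ) ^ 2 * P.N (lv c) * p (lv c) (Cc c) < 1
            · rw [if_pos ⟨h, h2⟩, if_pos ⟨rfl, h2⟩, mul_one]
            · rw [if_neg (fun h' => h2 h'.2), if_neg (fun h' => h2 h'.2), mul_zero]
          · intro l _ hne
            rw [if_neg (fun h' => hne h'.1.symm)]
          · intro h'
            exact absurd (mem_range.2 h) h'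
        · rw [if_neg (fun h' => h h'.1), mul_zero]
          symm
          refine sum_eq_zero fun l hl => if_neg ?_
          rintro ⟨h', _⟩
          exact h (h' ▸ mem_range.1 hl)
      rw [sum_congr rfl fun c _ => h1 c, sum_comm]
      have h2 : ∀ l ∈ range H, ∑ c, (if lv c = l ∧ (H : ℝ) ^ 2 * P.N l * p l (Cc c) < 1 then ν c else 0)
          ≤ 1 / (H : ℝ) ^ 2 := by
        intro l hl
        have hl' := mem_range.1 hl
        rw [← sum_filter]
        have hmaps : ∀ c ∈ univ.filter
            (fun c => lv c = l ∧ (H : ℝ) ^ 2 * P.N l * p l (Cc c) < 1), Cc c ∈ R P F l := by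
          intro c hc
          rw [mem_filter] at hc
          have := (hCc c (show lv c < H by rw [hc.2.1]; exact hl')).1.1
          have h12 : lev P F c.1 (Y c) = lv c := rfl
          rw [h12, hc.2.1] at this
          exact this
        rw [← sum_fiberwise_of_maps_to hmaps]
        have hN : (0 : ℝ) < P.N l := by exact_mod_cast P.Npos l
        calc ∑ C ∈ R P F l, ∑ c ∈ univ.filter
              (fun c => lv c = l ∧ (H : ℝ) ^ 2 * P.N l * p l (Cc c) < 1) with Cc c = C, ν c
            ≤ ∑ C ∈ R P F l, 1 / ((H : ℝ) ^ 2 * P.N l) := by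
              refine sum_le_sum fun C _ => ?_
              by_cases h3 : (H : ℝ) ^ 2 * P.N l * p l C < 1
              · have h4 : ∑ c ∈ univ.filter
                    (fun c => lv c = l ∧ (H : ℝ) ^ 2 * P.N l * p l (Cc c) < 1) with Cc c = C, ν c
                    ≤ p l C := by
                  simp only [hp]
                  rw [← sum_filter]
                  refine sum_le_sum_of_subset_of_nonneg ?_ (fun c _ _ => hν c)
                  intro c hc
                  simp only [mem_filter, mem_univ, true_and] at hc ⊢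
                  exact ⟨hc.1.1, hc.2⟩
                refine h4.trans ?_
                rw [le_div_iff₀ (by positivity)]
                linarith
              · have h4 : (univ.filter
                    (fun c => lv c = l ∧ (H : ℝ) ^ 2 * P.N l * p l (Cc c) < 1)).filter
                    (fun c => Cc c = C) = ∅ := by
                  ext c
                  simp only [mem_filter, mem_univ, true_and, notMem_empty, iff_false]
                  rintro ⟨⟨_, h5⟩, h6⟩
                  rw [h6] at h5
                  exact h3 h5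
                rw [h4, sum_empty]
                positivity
          _ = (R P F l).card * (1 / ((H : ℝ) ^ 2 * P.N l)) := by rw [sum_const, nsmul_eq_mul]
          _ ≤ P.N l * (1 / ((H : ℝ) ^ 2 * P.N l)) := by
              refine mul_le_mul_of_nonneg_right ?_ (by positivity)
              exact_mod_cast card_R P F l
          _ = 1 / (H : ℝ) ^ 2 := by field_simp
      calc ∑ l ∈ range H, ∑ c, (if lv c = l ∧ (H : ℝ) ^ 2 * P.N l * p l (Cc c) < 1 then ν c else 0)
          ≤ ∑ l ∈ range H, 1 / (H : ℝ) ^ 2 := sum_le_sum h2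
        _ = H * (1 / (H : ℝ) ^ 2) := by rw [sum_const, card_range, nsmul_eq_mul]
        _ = 1 / H := by field_simp
    -- bad columns
    have hbad : ∑ c, ν c * (if lv c < H ∧ BadI P F c.1 (lv c) (i (lv c)) then 1 else 0) ≤ 1 / H := by
      have h1 : ∀ c, ν c * (if lv c < H ∧ BadI P F c.1 (lv c) (i (lv c)) then (1 : ℝ) else 0)
          ≤ ∑ l ∈ range H, (if BadI P F c.1 l (i l) then ν c else 0) := by
        intro c
        have h0 : ∀ l ∈ range H, (0 : ℝ) ≤ (if BadI P F c.1 l (i l) then ν c else 0) := by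
          intro l _
          split_ifs <;> simp [hν]
        by_cases h : lv c < H ∧ BadI P F c.1 (lv c) (i (lv c))
        · rw [if_pos h, mul_one]
          refine le_trans ?_ (single_le_sum h0 (mem_range.2 h.1))
          rw [if_pos h.2]
        · rw [if_neg h, mul_zero]
          exact sum_nonneg h0
      calc ∑ c, ν c * (if lv c < H ∧ BadI P F c.1 (lv c) (i (lv c)) then (1 : ℝ) else 0)
          ≤ ∑ c, ∑ l ∈ range H, (if BadI P F c.1 l (i l) then ν c else 0) :=
            sum_le_sum fun c _ => h1 c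
        _ = ∑ l ∈ range H, ∑ c, (if BadI P F c.1 l (i l) then ν c else 0) := sum_comm
        _ ≤ ∑ l ∈ range H, 1 / (H : ℝ) ^ 2 := sum_le_sum fun l hl => hi l (mem_range.1 hl)
        _ = H * (1 / (H : ℝ) ^ 2) := by rw [sum_const, card_range, nsmul_eq_mul]
        _ = 1 / H := by field_simp
    rw [abs_of_nonneg (sum_nonneg fun c _ => mul_nonneg (hν c) (hgap0 c))]
    calc ∑ c, ν c * (w P F c.1 (Y c) - w P F c.1 (Y' c))
        ≤ ∑ c, ν c * (1 / H
          + (if lv c < H ∧ (H : ℝ) ^ 2 * P.N (lv c) * p (lv c) (Cc c) < 1 then 1 else 0)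
          + (if lv c < H ∧ BadI P F c.1 (lv c) (i (lv c)) then 1 else 0)) :=
          sum_le_sum fun c _ => mul_le_mul_of_nonneg_left (hpt c) (hν c)
      _ = (∑ c, ν c) * (1 / H)
          + ∑ c, ν c * (if lv c < H ∧ (H : ℝ) ^ 2 * P.N (lv c) * p (lv c) (Cc c) < 1 then 1 else 0)
          + ∑ c, ν c * (if lv c < H ∧ BadI P F c.1 (lv c) (i (lv c)) then 1 else 0) := by
          simp only [mul_add, sum_add_distrib, sum_mul]
      _ ≤ 1 * (1 / H) + 1 / H + 1 / H := by
          have h1 : (∑ c, ν c) * (1 / (H : ℝ)) ≤ 1 * (1 / H) :=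
            mul_le_mul_of_nonneg_right hν1 (by positivity)
          linarith
      _ = 3 / H := by ring

end Crest.Agent.EntDual
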