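import Crest.Agent.EntDual.Seq
import Crest.Agent.EntDual.FamEx
import Crest.Agent.EntDual.TSide

namespace Crest.Agent.EntDual

theorem baseExists (B : ℕ) (tol : ℝ) (htol : 0 < tol) : BaseExists B tol := by
  obtain ⟨H, hH⟩ := exists_nat_gt (3 / tol)
  have h3 : (0 : ℝ) < 3 / tol := by positivity
  have hH0 : 0 < H := by exact_mod_cast h3.trans hH
  obtain ⟨P⟩ := exists_params H B
  obtain ⟨z, i1, i2, i3, ⟨F⟩⟩ := exists_fam H P.g P.M P.gpos
  refine ⟨z, i1, i2, i3, w P F, fun S y => w_bounds P F hH0 S y,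
    fun S hS => ⟨w_univ P F hH0 S hS, w_self P F hH0 S⟩, ?_⟩
  intro m ν hν hν1
  obtain ⟨S, hS, h⟩ := tside P F hH0 m ν hν hν1
  refine ⟨S, hS, fun u => (h u).trans ?_⟩
  have hH' : (0 : ℝ) < H := by exact_mod_cast hH0
  rw [div_le_iff₀ hH']
  rw [div_lt_iff₀ htol] at hH
  linarith [mul_comm (H : ℝ) tol]

end Crest.Agent.EntDual
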