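import Mathlib

namespace Crest.Agent.EntDual

open Finset

private theorem card_agree_on {z : Type} [Fintype z] [DecidableEq z] (m : ℕ) (u : z → Fin m)
    (S : Finset z) :
    (univ.filter (fun v : z → Fin m => ∀ j ∈ S, u j = v j)).card = m ^ (Fintype.card z - S.card) := by
  have h1 : univ.filter (fun v : z → Fin m => ∀ j ∈ S, u j = v j) =
      Fintype.piFinset (fun j => if j ∈ S then ({u j} : Finset (Fin m)) else univ) := by
    ext v
    rw [mem_filter, Fintype.mem_piFinset]
    constructor
    · rintro ⟨-, h⟩ j
      by_cases hj : j ∈ S
      · rw [if_pos hj, mem_singleton]; exact (h j hj).symm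
      · rw [if_neg hj]; exact mem_univ _
    · intro h
      refine ⟨mem_univ _, fun j hj => ?_⟩
      have := h j
      rw [if_pos hj, mem_singleton] at this
      exact this.symm
  rw [h1, Fintype.card_piFinset]
  have h2 : ∀ j, (if j ∈ S then ({u j} : Finset (Fin m)) else univ).card =
      if j ∈ S then 1 else m := by
    intro j
    by_cases hj : j ∈ S
    · rw [if_pos hj, if_pos hj, card_singleton]
    · rw [if_neg hj, if_neg hj, card_univ, Fintype.card_fin]
  simp only [h2]
  rw [Finset.prod_ite, prod_const_one, one_mul, prod_const]
  congr 1
  rw [← card_compl]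
  congr 1
  ext j
  simp

/-- A code with pairwise agreement `< n/2` (greedy: take `U` of maximal cardinality among finsets whose
distinct members agree on less than half of the coordinates; then every `v` agrees with some `u ∈ U` on at
least half of the coordinates, and for given `u` the number of such `v` is at most
`2^n * m^(n/2)`: choose the agreement set `S'` with `n ≤ 2 * S'.card`, the rest is free;
`n - S'.card ≤ n/2`). -/
theorem code_exists (z : Type) [Fintype z] [DecidableEq z] [Nonempty z] (m : ℕ) (hm : 1 ≤ m) :
    ∃ U : Finset (z → Fin m),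
      (∀ u ∈ U, ∀ u' ∈ U, u ≠ u' →
        2 * (univ.filter (fun j => u j = u' j)).card < Fintype.card z) ∧
      m ^ (Fintype.card z) ≤ U.card * (2 ^ (Fintype.card z) * m ^ (Fintype.card z / 2)) := by
  classical
  set Pr : Finset (z → Fin m) → Prop := fun U => ∀ u ∈ U, ∀ u' ∈ U, u ≠ u' →
        2 * (univ.filter (fun j => u j = u' j)).card < Fintype.card z with hPr
  have hne : ((univ : Finset (Finset (z → Fin m))).filter Pr).Nonempty :=
    ⟨∅, by rw [mem_filter]; exact ⟨mem_univ _, fun u hu => absurd hu (notMem_empty u)⟩⟩
  obtain ⟨U, hU, hmax⟩ := exists_max_image _ (fun U => U.card) hne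
  rw [mem_filter] at hU
  refine ⟨U, hU.2, ?_⟩
  -- every v is close to some u ∈ U
  have hcov : ∀ v : z → Fin m, ∃ u ∈ U,
      Fintype.card z ≤ 2 * (univ.filter (fun j => u j = v j)).card := by
    intro v
    by_cases hv : v ∈ U
    · refine ⟨v, hv, ?_⟩
      have : (univ.filter (fun j => v j = v j)) = (univ : Finset z) := by
        ext j; simp
      rw [this, card_univ]
      omega
    · by_contra hcon
      push Not at hcon
      have hins : Pr (insert v U) := by
        intro a ha b hb hab
        rw [mem_insert] at ha hb
        rcases ha with rfl | ha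
        · rcases hb with rfl | hb
          · exact absurd rfl hab
          · have := hcon b hb
            have e : univ.filter (fun j => a j = b j) = univ.filter (fun j => b j = a j) := by
              ext j; simp [eq_comm]
            rw [e]; exact this
        · rcases hb with rfl | hb
          · exact hcon a ha
          · exact hU.2 a ha b hb hab
      have h1 := hmax (insert v U) (by rw [mem_filter]; exact ⟨mem_univ _, hins⟩)
      rw [card_insert_of_notMem hv] at h1
      omega
  have hball : ∀ u : z → Fin m,
      (univ.filter (fun v : z → Fin m =>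
        Fintype.card z ≤ 2 * (univ.filter (fun j => u j = v j)).card)).card ≤
        2 ^ (Fintype.card z) * m ^ (Fintype.card z / 2) := by
    intro u
    have hsub : univ.filter (fun v : z → Fin m =>
        Fintype.card z ≤ 2 * (univ.filter (fun j => u j = v j)).card) ⊆
        ((univ : Finset (Finset z)).filter (fun S => Fintype.card z ≤ 2 * S.card)).biUnion
          (fun S => univ.filter (fun v : z → Fin m => ∀ j ∈ S, u j = v j)) := by
      intro v hv
      rw [mem_filter] at hv
      rw [mem_biUnion]
      refine ⟨univ.filter (fun j => u j = v j), ?_, ?_⟩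
      · rw [mem_filter]; exact ⟨mem_univ _, hv.2⟩
      · rw [mem_filter]
        refine ⟨mem_univ _, fun j hj => ?_⟩
        rw [mem_filter] at hj
        exact hj.2
    refine (card_le_card hsub).trans (card_biUnion_le.trans ?_)
    calc ∑ S ∈ (univ : Finset (Finset z)).filter (fun S => Fintype.card z ≤ 2 * S.card),
          (univ.filter (fun v : z → Fin m => ∀ j ∈ S, u j = v j)).card
        ≤ ∑ S ∈ (univ : Finset (Finset z)).filter (fun S => Fintype.card z ≤ 2 * S.card),
          m ^ (Fintype.card z / 2) := by
          refine sum_le_sum fun S hS => ?_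
          rw [mem_filter] at hS
          rw [card_agree_on]
          exact Nat.pow_le_pow_right hm (by omega)
      _ = ((univ : Finset (Finset z)).filter (fun S => Fintype.card z ≤ 2 * S.card)).card *
            m ^ (Fintype.card z / 2) := by rw [sum_const, smul_eq_mul]
      _ ≤ 2 ^ (Fintype.card z) * m ^ (Fintype.card z / 2) := by
          refine Nat.mul_le_mul_right _ ((card_filter_le _ _).trans ?_)
          rw [card_univ, Fintype.card_finset]
  calc m ^ (Fintype.card z) = (univ : Finset (z → Fin m)).card := by
        rw [card_univ, Fintype.card_fun, Fintype.card_fin]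
    _ ≤ (U.biUnion (fun u => univ.filter (fun v : z → Fin m =>
        Fintype.card z ≤ 2 * (univ.filter (fun j => u j = v j)).card))).card := by
        refine card_le_card fun v _ => ?_
        rw [mem_biUnion]
        obtain ⟨u, hu, h⟩ := hcov v
        exact ⟨u, hu, by rw [mem_filter]; exact ⟨mem_univ _, h⟩⟩
    _ ≤ ∑ u ∈ U, (univ.filter (fun v : z → Fin m =>
        Fintype.card z ≤ 2 * (univ.filter (fun j => u j = v j)).card)).card := card_biUnion_le
    _ ≤ ∑ _u ∈ U, 2 ^ (Fintype.card z) * m ^ (Fintype.card z / 2) :=
        sum_le_sum fun u _ => hball u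
    _ = U.card * (2 ^ (Fintype.card z) * m ^ (Fintype.card z / 2)) := by
        rw [sum_const, smul_eq_mul]

end Crest.Agent.EntDual
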