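import Mathlib

/-!
Row 71 (S0094): duality of entropy numbers fails, `L` a cube.  Definitions.

Rows `u : z → Fin m`, columns `(S, x) : Finset z × (z → Fin m)`, entries `w S {j | x j = u j}`.
-/

namespace Crest.Agent.EntDual

open Finset

/-- Parameters of the construction (`H` levels, budget factor `B`). -/
structure Params (H B : ℕ) where
  g : ℕ → ℕ
  I : ℕ → ℕ
  M : ℕ → ℕ
  N : ℕ → ℕ
  κ : ℕ → ℝ
  N0 : N 0 = 1
  κ0 : κ 0 = 1 / 2
  κpos : ∀ l, 0 < κ l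
  Ipos : ∀ l, 1 ≤ I l
  Mpos : ∀ l, 1 ≤ M l
  Npos : ∀ l, 1 ≤ N l
  gpos : ∀ l, 1 ≤ g l
  hpow : ∀ l, (1 - 1 / (g l : ℝ)) ^ (I l) ≤ κ l / 2
  hκ : ∀ l, κ (l + 1) * (2 * I l) = κ l
  hN : ∀ l, N (l + 1) = N l * M l
  hM : ∀ l, H ^ 2 * (N l * I l) ≤ M l
  hg : ∀ l, H * B * (H ^ 2 * N l) ≤ g l

/-- A family of independent sets `c l i` of density `1 / g l`. -/
structure Fam (H : ℕ) (g M : ℕ → ℕ) (z : Type) [Fintype z] [DecidableEq z] where
  c : ∀ l : ℕ, Fin (M l) → Finset z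
  hcard : ∀ l, l < H → ∀ i, g l * (c l i).card = Fintype.card z
  hun : ∀ l, l < H → ∀ s : Finset (Fin (M l)),
    ((univ.filter (fun j => ∀ i ∈ s, j ∉ c l i)).card : ℝ)
      = (1 - 1 / (g l : ℝ)) ^ s.card * Fintype.card z

/-- What the combinatorial part provides. -/
def BaseExists (B : ℕ) (tol : ℝ) : Prop :=
  ∃ (z : Type) (_ : Fintype z) (_ : DecidableEq z) (_ : Nonempty z)
    (w : Finset z → Finset z → ℝ),
    (∀ S y, 0 ≤ w S y ∧ w S y ≤ 1) ∧
    (∀ S : Finset z, 2 * S.card < Fintype.card z → w S univ = 1 ∧ w S S = 0) ∧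
    (∀ (m : ℕ) (ν : Finset z × (z → Fin m) → ℝ), (∀ c, 0 ≤ ν c) → ∑ c, ν c ≤ 1 →
      ∃ S : Finset (z × Fin m), B * S.card ≤ Fintype.card z ∧
        ∀ u : z → Fin m,
          |∑ c, ν c * (w c.1 (univ.filter (fun j => c.2 j = u j))
            - w c.1 (univ.filter (fun j => c.2 j = u j ∧ (j, u j) ∈ S)))| ≤ tol)

section Rich

variable {H B : ℕ} (P : Params H B) {z : Type} [Fintype z] [DecidableEq z]
  (F : Fam H P.g P.M z)

/-- Rich sets of rank `l`. -/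
def R : ℕ → Finset (Finset z)
  | 0 => {univ}
  | (l + 1) => ((R l) ×ˢ (univ : Finset (Fin (P.M l)))).image (fun q => q.1 ∩ F.c l q.2)

/-- `C` is a good rich set of rank `l` for the forbidden set `S`. -/
def Good (S : Finset z) (l : ℕ) (C : Finset z) : Prop :=
  C ∈ R P F l ∧ P.κ l * Fintype.card z ≤ ((C \ S).card : ℝ)

/-- level `l` is attained by `y`. -/
def Hit (S y : Finset z) (l : ℕ) : Prop :=
  H ≤ l ∨ ∃ C, Good P F S l C ∧ C ⊆ y

open Classical in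
/-- least level attained -/
noncomputable def lev (S y : Finset z) : ℕ :=
  Nat.find (p := Hit P F S y) ⟨H, Or.inl le_rfl⟩

/-- The weight function. -/
noncomputable def w (S y : Finset z) : ℝ := 1 - (lev P F S y : ℝ) / H

/-- bad indices -/
def BadI (S : Finset z) (l : ℕ) (i : Fin (P.M l)) : Prop :=
  ∃ C, Good P F S l C ∧ ¬ Good P F S (l + 1) (C ∩ F.c l i)

end Rich

end Crest.Agent.EntDual
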