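import Mathlib

namespace Crest.Agent.EntDual

open Finset

/-- the push forward map -/
private def encPi {z : Type} {m s : ℕ} (σ : Fin s → Option (z × Fin m)) [DecidableEq z]
    (c : Finset z × (z → Fin m)) : Finset z × (Fin s → Bool) :=
  (c.1, fun q => match σ q with
    | none => false
    | some p => decide (c.2 p.1 = p.2))

private theorem encPi_snd {z : Type} {m s : ℕ} [DecidableEq z] (σ : Fin s → Option (z × Fin m))
    (c : Finset z × (z → Fin m)) (q : Fin s) (p : z × Fin m) (h : σ q = some p) :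
    (encPi σ c).2 q = true ↔ c.2 p.1 = p.2 := by
  simp [encPi, h]

/-- the mass of a class -/
private noncomputable def encMass {z : Type} [Fintype z] [DecidableEq z] {m s : ℕ}
    (σ : Fin s → Option (z × Fin m)) (ν : Finset z × (z → Fin m) → ℝ)
    (Q : Finset z × (Fin s → Bool)) : ℝ :=
  ∑ c ∈ univ.filter (fun c => encPi σ c = Q), ν c

/-- the weight of a class -/
private noncomputable def encVal {z : Type} [Fintype z] [DecidableEq z] {m s : ℕ}
    (w : Finset z → Finset z → ℝ) (σ : Fin s → Option (z × Fin m)) (u : z → Fin m)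
    (Q : Finset z × (Fin s → Bool)) : ℝ :=
  w Q.1 (univ.filter (fun j => ∃ q, σ q = some (j, u j) ∧ Q.2 q = true))

private theorem encMass_nonneg {z : Type} [Fintype z] [DecidableEq z] {m s : ℕ}
    (σ : Fin s → Option (z × Fin m)) (ν : Finset z × (z → Fin m) → ℝ) (h0 : ∀ c, 0 ≤ ν c)
    (Q : Finset z × (Fin s → Bool)) : 0 ≤ encMass σ ν Q :=
  Finset.sum_nonneg fun c _ => h0 c

private theorem encMass_le {z : Type} [Fintype z] [DecidableEq z] {m s : ℕ}
    (σ : Fin s → Option (z × Fin m)) (ν : Finset z × (z → Fin m) → ℝ) (h0 : ∀ c, 0 ≤ ν c)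
    (h1 : ∑ c, ν c ≤ 1) (Q : Finset z × (Fin s → Bool)) : encMass σ ν Q ≤ 1 :=
  (Finset.sum_le_sum_of_subset_of_nonneg (Finset.filter_subset _ _) fun c _ _ => h0 c).trans h1

private theorem enc_sum {z : Type} [Fintype z] [DecidableEq z] {m s : ℕ}
    (w : Finset z → Finset z → ℝ) (σ : Fin s → Option (z × Fin m))
    (S : Finset (z × Fin m)) (hS : ∀ p, p ∈ S ↔ ∃ q, σ q = some p)
    (ν : Finset z × (z → Fin m) → ℝ) (u : z → Fin m) :
    ∑ c, ν c * w c.1 (univ.filter (fun j => c.2 j = u j ∧ (j, u j) ∈ S)) =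
      ∑ Q, encMass σ ν Q * encVal w σ u Q := by
  have h1 : ∀ c : Finset z × (z → Fin m),
      w c.1 (univ.filter (fun j => c.2 j = u j ∧ (j, u j) ∈ S)) = encVal w σ u (encPi σ c) := by
    intro c
    unfold encVal
    have : (univ.filter (fun j => c.2 j = u j ∧ (j, u j) ∈ S)) =
        (univ.filter (fun j => ∃ q, σ q = some (j, u j) ∧ (encPi σ c).2 q = true)) := by
      ext j
      simp only [Finset.mem_filter, Finset.mem_univ, true_and]
      constructor
      · rintro ⟨h1, h2⟩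
        obtain ⟨q, hq⟩ := (hS _).mp h2
        exact ⟨q, hq, (encPi_snd σ c q _ hq).mpr h1⟩
      · rintro ⟨q, hq, h1⟩
        exact ⟨(encPi_snd σ c q _ hq).mp h1, (hS _).mpr ⟨q, hq⟩⟩
    rw [this]
    rfl
  calc ∑ c, ν c * w c.1 (univ.filter (fun j => c.2 j = u j ∧ (j, u j) ∈ S))
      = ∑ c, ν c * encVal w σ u (encPi σ c) := Finset.sum_congr rfl fun c _ => by rw [h1 c]
    _ = ∑ Q, ∑ c ∈ univ.filter (fun c => encPi σ c = Q), ν c * encVal w σ u (encPi σ c) :=
        (Finset.sum_fiberwise _ _ _).symm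
    _ = ∑ Q, encMass σ ν Q * encVal w σ u Q := by
        refine Finset.sum_congr rfl fun Q _ => ?_
        unfold encMass
        rw [Finset.sum_mul]
        refine Finset.sum_congr rfl fun c hc => ?_
        rw [(Finset.mem_filter.mp hc).2]

private theorem exists_enum {β : Type} [DecidableEq β] (s : ℕ) (S : Finset β) (h : S.card ≤ s) :
    ∃ σ : Fin s → Option β, ∀ p, p ∈ S ↔ ∃ q, σ q = some p := by
  classical
  let e := S.equivFin
  refine ⟨fun q => if hq : (q : ℕ) < S.card then some (e.symm ⟨q, hq⟩ : β) else none, fun p => ?_⟩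
  constructor
  · intro hp
    refine ⟨⟨e ⟨p, hp⟩, lt_of_lt_of_le (e ⟨p, hp⟩).2 h⟩, ?_⟩
    simp
  · rintro ⟨q, hq⟩
    by_cases h1 : (q : ℕ) < S.card
    · simp only [h1, dif_pos] at hq
      rw [← Option.some.inj hq]
      exact (e.symm ⟨q, h1⟩).2
    · simp only [h1, dif_neg, not_false_iff] at hq
      exact absurd hq (by simp)

/-- Encoding of measures.  For `ν` as below choose `S` from `hT` and `σ : Fin s → Option (z × Fin m)` with
`S = {p | ∃ q, σ q = some p}` (`S.card ≤ s`), and push `ν` forward to the finite type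
`Q := Finset z × (Fin s → Bool)` by `(S', x) ↦ (S', fun q => decide (∃ p, σ q = some p ∧ x p.1 = p.2))`;
`w S' {j | x j = u j ∧ (j, u j) ∈ S}` depends only on the image of `(S', x)` (and on `σ, u`).
The code is `(σ, fun q => ⌊D * mass q⌋)`; two masses with the same floor differ by at most `1/D`. -/
theorem encode (z : Type) [Fintype z] [DecidableEq z] (m s D : ℕ) (hD : 0 < D) (tol : ℝ) (htol : 0 ≤ tol)
    (w : Finset z → Finset z → ℝ) (hw : ∀ S y, 0 ≤ w S y ∧ w S y ≤ 1)
    (hT : ∀ ν : Finset z × (z → Fin m) → ℝ, (∀ c, 0 ≤ ν c) → ∑ c, ν c ≤ 1 →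
      ∃ S : Finset (z × Fin m), S.card ≤ s ∧
        ∀ u : z → Fin m,
          |∑ c, ν c * (w c.1 (univ.filter (fun j => c.2 j = u j))
            - w c.1 (univ.filter (fun j => c.2 j = u j ∧ (j, u j) ∈ S)))| ≤ tol) :
    ∃ Ψ : (Finset z × (z → Fin m) → ℝ) →
        (Fin s → Option (z × Fin m)) × (Finset z × (Fin s → Bool) → Fin (D + 1)),
      ∀ ν ν' : Finset z × (z → Fin m) → ℝ, (∀ x, 0 ≤ ν x) → (∑ x, ν x ≤ 1) →
        (∀ x, 0 ≤ ν' x) → (∑ x, ν' x ≤ 1) → Ψ ν = Ψ ν' →
        ∀ u : z → Fin m,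
          |∑ c, ν c * w c.1 (univ.filter (fun j => c.2 j = u j))
            - ∑ c, ν' c * w c.1 (univ.filter (fun j => c.2 j = u j))|
          ≤ 2 * tol + (Fintype.card (Finset z × (Fin s → Bool)) : ℝ) / D := by
  classical
  have hch : ∀ ν : Finset z × (z → Fin m) → ℝ, ∃ σ : Fin s → Option (z × Fin m),
      (∀ c, 0 ≤ ν c) → ∑ c, ν c ≤ 1 → ∀ u : z → Fin m,
        |∑ c, ν c * w c.1 (univ.filter (fun j => c.2 j = u j)) -
          ∑ Q, encMass σ ν Q * encVal w σ u Q| ≤ tol := by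
    intro ν
    by_cases h0 : ∀ c, 0 ≤ ν c
    · by_cases h1 : ∑ c, ν c ≤ 1
      · obtain ⟨S, hSs, hS⟩ := hT ν h0 h1
        obtain ⟨σ, hσ⟩ := exists_enum s S hSs
        refine ⟨σ, fun _ _ u => ?_⟩
        have h2 := hS u
        have h3 : ∑ c, ν c * (w c.1 (univ.filter (fun j => c.2 j = u j))
            - w c.1 (univ.filter (fun j => c.2 j = u j ∧ (j, u j) ∈ S))) =
            ∑ c, ν c * w c.1 (univ.filter (fun j => c.2 j = u j)) -
              ∑ c, ν c * w c.1 (univ.filter (fun j => c.2 j = u j ∧ (j, u j) ∈ S)) := by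
          rw [← Finset.sum_sub_distrib]
          exact Finset.sum_congr rfl fun c _ => mul_sub _ _ _
        rw [h3, enc_sum w σ S hσ ν u] at h2
        exact h2
      · exact ⟨fun _ => none, fun _ h => absurd h h1⟩
    · exact ⟨fun _ => none, fun h => absurd h h0⟩
  choose σ hσ using hch
  refine ⟨fun ν => (σ ν, fun Q => ⟨min D (⌊(D : ℝ) * encMass (σ ν) ν Q⌋₊),
    Nat.lt_succ_of_le (min_le_left _ _)⟩), ?_⟩
  intro ν ν' h0 h1 h0' h1' hΨ u
  have hσeq : σ ν = σ ν' := congrArg Prod.fst hΨ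
  have hfl : ∀ Q, |encMass (σ ν) ν Q - encMass (σ ν') ν' Q| ≤ 1 / D := by
    intro Q
    have h2 := congrArg Fin.val (congrFun (congrArg Prod.snd hΨ) Q)
    simp only at h2
    have hDpos : (0 : ℝ) < D := by exact_mod_cast hD
    have hle : ⌊(D : ℝ) * encMass (σ ν) ν Q⌋₊ ≤ D := by
      refine Nat.floor_le_of_le ?_
      calc (D : ℝ) * encMass (σ ν) ν Q ≤ D * 1 :=
            mul_le_mul_of_nonneg_left (encMass_le _ _ h0 h1 Q) hDpos.le
        _ = D := mul_one _
    have hle' : ⌊(D : ℝ) * encMass (σ ν') ν' Q⌋₊ ≤ D := by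
      refine Nat.floor_le_of_le ?_
      calc (D : ℝ) * encMass (σ ν') ν' Q ≤ D * 1 :=
            mul_le_mul_of_nonneg_left (encMass_le _ _ h0' h1' Q) hDpos.le
        _ = D := mul_one _
    rw [min_eq_right hle, min_eq_right hle'] at h2
    have hn1 : 0 ≤ (D : ℝ) * encMass (σ ν) ν Q := mul_nonneg hDpos.le (encMass_nonneg _ _ h0 Q)
    have hn2 : 0 ≤ (D : ℝ) * encMass (σ ν') ν' Q := mul_nonneg hDpos.le (encMass_nonneg _ _ h0' Q)
    have a1 := Nat.floor_le hn1
    have a2 := Nat.lt_floor_add_one ((D : ℝ) * encMass (σ ν) ν Q)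
    have b1 := Nat.floor_le hn2
    have b2 := Nat.lt_floor_add_one ((D : ℝ) * encMass (σ ν') ν' Q)
    rw [← h2] at b1 b2
    rw [abs_le, div_eq_mul_inv, one_mul]
    have hinv : (D : ℝ) * (D : ℝ)⁻¹ = 1 := mul_inv_cancel₀ hDpos.ne'
    constructor
    · by_contra hcon
      push Not at hcon
      have := mul_lt_mul_of_pos_left hcon hDpos
      nlinarith
    · by_contra hcon
      push Not at hcon
      have := mul_lt_mul_of_pos_left hcon hDpos
      nlinarith
  have hmid : |∑ Q, encMass (σ ν) ν Q * encVal w (σ ν) u Q -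
      ∑ Q, encMass (σ ν') ν' Q * encVal w (σ ν') u Q| ≤
      (Fintype.card (Finset z × (Fin s → Bool)) : ℝ) / D := by
    have hv : ∀ Q, encVal w (σ ν') u Q = encVal w (σ ν) u Q := fun Q => by rw [hσeq]
    rw [← Finset.sum_sub_distrib]
    calc |∑ Q, (encMass (σ ν) ν Q * encVal w (σ ν) u Q - encMass (σ ν') ν' Q * encVal w (σ ν') u Q)|
        ≤ ∑ Q, |encMass (σ ν) ν Q * encVal w (σ ν) u Q -
            encMass (σ ν') ν' Q * encVal w (σ ν') u Q| := Finset.abs_sum_le_sum_abs _ _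
      _ ≤ ∑ _Q : Finset z × (Fin s → Bool), (1 / D : ℝ) := by
          refine Finset.sum_le_sum fun Q _ => ?_
          rw [hv Q, ← sub_mul, abs_mul]
          have hvv : |encVal w (σ ν) u Q| ≤ 1 := by
            unfold encVal
            rw [abs_of_nonneg (hw _ _).1]
            exact (hw _ _).2
          calc |encMass (σ ν) ν Q - encMass (σ ν') ν' Q| * |encVal w (σ ν) u Q|
              ≤ (1 / D) * 1 := mul_le_mul (hfl Q) hvv (abs_nonneg _) (by positivity)
            _ = 1 / D := mul_one _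
      _ = (Fintype.card (Finset z × (Fin s → Bool)) : ℝ) / D := by
          rw [Finset.sum_const, nsmul_eq_mul, Finset.card_univ]
          ring
  have hA := hσ ν h0 h1 u
  have hB := hσ ν' h0' h1' u
  rw [abs_sub_comm] at hB
  calc |∑ c, ν c * w c.1 (univ.filter (fun j => c.2 j = u j))
        - ∑ c, ν' c * w c.1 (univ.filter (fun j => c.2 j = u j))|
      = |(∑ c, ν c * w c.1 (univ.filter (fun j => c.2 j = u j)) -
          ∑ Q, encMass (σ ν) ν Q * encVal w (σ ν) u Q) +
        (∑ Q, encMass (σ ν) ν Q * encVal w (σ ν) u Q -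
          ∑ Q, encMass (σ ν') ν' Q * encVal w (σ ν') u Q) +
        (∑ Q, encMass (σ ν') ν' Q * encVal w (σ ν') u Q -
          ∑ c, ν' c * w c.1 (univ.filter (fun j => c.2 j = u j)))| := by
        congr 1
        ring
    _ ≤ tol + (Fintype.card (Finset z × (Fin s → Bool)) : ℝ) / D + tol :=
        (abs_add_three _ _ _).trans (add_le_add (add_le_add hA hmid) hB)
    _ = 2 * tol + (Fintype.card (Finset z × (Fin s → Bool)) : ℝ) / D := by ring

end Crest.Agent.EntDual
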