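import Mathlib
import Crest.Prelude.Def_Polar

namespace Crest.Agent.EntDual

open Finset Pointwise Crest.AnalysisR

namespace GeomAux

set_option linter.unusedSectionVars false

variable {X : Type} [Fintype X] {n : ℕ}

/-- the vector with coordinates `f` -/
noncomputable def toE (e : X ≃ Fin n) (f : X → ℝ) : EuclideanSpace ℝ (Fin n) :=
  WithLp.toLp 2 (fun i => f (e.symm i))

theorem toE_apply (e : X ≃ Fin n) (f : X → ℝ) (i : Fin n) : toE e f i = f (e.symm i) := rfl

theorem inner_toE (e : X ≃ Fin n) (f : X → ℝ) (y : EuclideanSpace ℝ (Fin n)) :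
    inner ℝ (toE e f) y = ∑ x, y (e x) * f x := by
  rw [PiLp.inner_apply]
  rw [← Equiv.sum_comp e]
  refine sum_congr rfl fun x _ => ?_
  rw [toE_apply, Equiv.symm_apply_apply]
  simp [mul_comm]

theorem l1_of_polar {y : EuclideanSpace ℝ (Fin n)}
    (hy : y ∈ polarSet {x : EuclideanSpace ℝ (Fin n) | ∀ i, |x i| ≤ 1}) : ∑ i, |y i| ≤ 1 := by
  have h := hy (WithLp.toLp 2 (fun i => if 0 ≤ y i then (1:ℝ) else -1)) (by
    intro i
    show |(if 0 ≤ y i then (1:ℝ) else -1)| ≤ 1
    split_ifs <;> simp)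
  rw [PiLp.inner_apply] at h
  refine le_trans (le_of_eq (sum_congr rfl fun i _ => ?_)) h
  show |y i| = inner ℝ (if 0 ≤ y i then (1:ℝ) else -1) (y i)
  split_ifs with h0
  · simp [abs_of_nonneg h0]
  · simp [abs_of_neg (not_le.mp h0)]

theorem norm_le_l1 (y : EuclideanSpace ℝ (Fin n)) : ‖y‖ ≤ ∑ i, |y i| := by
  rw [EuclideanSpace.norm_eq]
  apply Real.sqrt_le_iff.mpr
  refine ⟨sum_nonneg fun _ _ => abs_nonneg _, ?_⟩
  calc ∑ i, ‖y i‖ ^ 2 = ∑ i, |y i| ^ 2 := rfl
    _ ≤ (∑ i, |y i|) ^ 2 := by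
      rw [sq, sum_mul]
      apply sum_le_sum
      intro i _
      rw [sq]
      exact mul_le_mul_of_nonneg_left
        (single_le_sum (f := fun i => |y i|) (fun _ _ => abs_nonneg _) (mem_univ i)) (abs_nonneg _)

/-- the pulled back measure of the positive part -/
noncomputable def pos (e : X ≃ Fin n) (y : EuclideanSpace ℝ (Fin n)) (x : X) : ℝ := max (y (e x)) 0

/-- the pulled back measure of the negative part -/
noncomputable def neg (e : X ≃ Fin n) (y : EuclideanSpace ℝ (Fin n)) (x : X) : ℝ := max (-(y (e x))) 0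

theorem pos_nonneg (e : X ≃ Fin n) (y : EuclideanSpace ℝ (Fin n)) (x : X) : 0 ≤ pos e y x :=
  le_max_right _ _

theorem neg_nonneg (e : X ≃ Fin n) (y : EuclideanSpace ℝ (Fin n)) (x : X) : 0 ≤ neg e y x :=
  le_max_right _ _

theorem pos_le (e : X ≃ Fin n) (y : EuclideanSpace ℝ (Fin n)) (x : X) : pos e y x ≤ |y (e x)| :=
  max_le (le_abs_self _) (abs_nonneg _)

theorem neg_le (e : X ≃ Fin n) (y : EuclideanSpace ℝ (Fin n)) (x : X) : neg e y x ≤ |y (e x)| :=
  max_le (neg_le_abs _) (abs_nonneg _)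

theorem sum_pos_le (e : X ≃ Fin n) (y : EuclideanSpace ℝ (Fin n)) (hy : ∑ i, |y i| ≤ 1) :
    ∑ x, pos e y x ≤ 1 := by
  refine le_trans (sum_le_sum fun x _ => pos_le e y x) ?_
  rw [Equiv.sum_comp e (fun i => |y i|)]; exact hy

theorem sum_neg_le (e : X ≃ Fin n) (y : EuclideanSpace ℝ (Fin n)) (hy : ∑ i, |y i| ≤ 1) :
    ∑ x, neg e y x ≤ 1 := by
  refine le_trans (sum_le_sum fun x _ => neg_le e y x) ?_
  rw [Equiv.sum_comp e (fun i => |y i|)]; exact hy

theorem pos_sub_neg (e : X ≃ Fin n) (y : EuclideanSpace ℝ (Fin n)) (x : X) :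
    y (e x) = pos e y x - neg e y x := by
  unfold pos neg
  rcases le_total 0 (y (e x)) with h | h
  · rw [max_eq_left h, max_eq_right (by linarith)]; ring
  · rw [max_eq_right h, max_eq_left (by linarith)]; ring

theorem inner_split (e : X ≃ Fin n) (f : X → ℝ) (y : EuclideanSpace ℝ (Fin n)) :
    inner ℝ (toE e f) y = ∑ x, pos e y x * f x - ∑ x, neg e y x * f x := by
  rw [inner_toE, ← sum_sub_distrib]
  refine sum_congr rfl fun x _ => ?_
  rw [pos_sub_neg e y x]; ring

end GeomAux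

open GeomAux

/-- Geometric reduction.  `n := card X`, identify `X` with `Fin n`, and
`K := convexHull ℝ {± 3 φ_u} + closedBall 0 η` with `η := 1/(4a * (1 + something))`, e.g. `η * ‖y‖ ≤ 1/(2a)` for
all `y` with `∑|y_i| ≤ 2` (`‖y‖₂ ≤ ∑ |y_i|`), so `η := 1/(4a)`.
Polar of the cube: `∑ |y_i| ≤ 1`.  For such `y` let `ν₊, ν₋` be its positive and negative parts; the code of `y`
is `(Ψ ν₊, Ψ ν₋)`; `t₁` := one representative for each code.  For two `y, y'` with the same code
`|⟪3 φ_u, y - y'⟫| ≤ 3 * 2 * τ ≤ 1/(2a)`.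
Lower bound: `3 φ_u ∈ K`, `u ∈ U`, have pairwise sup-distance `≥ 3 > 2`, so no translate of the cube contains
two of them. -/
theorem geom {X ι 𝒞 : Type} [Fintype X] [DecidableEq X] [Nonempty X] [Fintype ι] [Nonempty ι]
    [Fintype 𝒞] [DecidableEq 𝒞] [Nonempty 𝒞]
    (φ : ι → X → ℝ) (a τ : ℝ) (ha : 1 ≤ a) (hτ : 6 * τ ≤ 1 / (2 * a))
    (Ψ : (X → ℝ) → 𝒞)
    (hΨ : ∀ ν ν' : X → ℝ, (∀ x, 0 ≤ ν x) → (∑ x, ν x ≤ 1) → (∀ x, 0 ≤ ν' x) → (∑ x, ν' x ≤ 1) →
      Ψ ν = Ψ ν' → ∀ u, |∑ x, ν x * φ u x - ∑ x, ν' x * φ u x| ≤ τ)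
    (U : Finset ι) (hU : ∀ u ∈ U, ∀ u' ∈ U, u ≠ u' → ∃ x, 1 ≤ |φ u x - φ u' x|) :
    ∃ n : ℕ, 0 < n ∧ ∃ K : Set (EuclideanSpace ℝ (Fin n)),
      Convex ℝ K ∧ IsCompact K ∧ (interior K).Nonempty ∧ (∀ x ∈ K, -x ∈ K) ∧
      ∃ t₁ : Finset (EuclideanSpace ℝ (Fin n)),
        polarSet {x : EuclideanSpace ℝ (Fin n) | ∀ i, |x i| ≤ 1} ⊆ ⋃ y ∈ t₁, (y +ᵥ a⁻¹ • polarSet K) ∧
        t₁.card ≤ (Fintype.card 𝒞) ^ 2 ∧
        ∀ t₂ : Finset (EuclideanSpace ℝ (Fin n)),
          K ⊆ ⋃ x ∈ t₂, (x +ᵥ {z : EuclideanSpace ℝ (Fin n) | ∀ i, |z i| ≤ 1}) →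
          U.card ≤ t₂.card := by
  classical
  have ha0 : 0 < a := by linarith
  set n := Fintype.card X with hn
  let e : X ≃ Fin n := Fintype.equivFin X
  let V : Type := EuclideanSpace ℝ (Fin n)
  let S : Set (EuclideanSpace ℝ (Fin n)) :=
    Set.range (fun u => (3:ℝ) • toE e (φ u)) ∪ Set.range (fun u => -((3:ℝ) • toE e (φ u)))
  have hSfin : S.Finite := (Set.finite_range _).union (Set.finite_range _)
  have hSneg : ∀ x ∈ S, -x ∈ S := by
    rintro x (⟨u, rfl⟩ | ⟨u, rfl⟩)
    · exact Or.inr ⟨u, rfl⟩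
    · exact Or.inl ⟨u, by simp⟩
  let η : ℝ := 1 / (4 * a)
  have hη : 0 < η := by positivity
  let K : Set (EuclideanSpace ℝ (Fin n)) := convexHull ℝ S + Metric.closedBall 0 η
  have hSne : (convexHull ℝ S).Nonempty := by
    obtain ⟨u⟩ := (inferInstance : Nonempty ι)
    exact ⟨_, subset_convexHull ℝ S (Or.inl ⟨u, rfl⟩)⟩
  refine ⟨n, Fintype.card_pos, K, ?_, ?_, ?_, ?_, ?_⟩
  · exact (convex_convexHull ℝ S).add (convex_closedBall 0 η)
  · exact (hSfin.isCompact_convexHull ℝ).add (isCompact_closedBall 0 η)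
  · obtain ⟨h, hh⟩ := hSne
    refine ⟨h, mem_interior.mpr ⟨Metric.ball h η, ?_, Metric.isOpen_ball, Metric.mem_ball_self hη⟩⟩
    intro z hz
    refine Set.mem_add.mpr ⟨h, hh, z - h, ?_, by abel⟩
    rw [mem_closedBall_zero_iff]
    rw [mem_ball_iff_norm] at hz
    exact hz.le
  · intro x hx
    obtain ⟨h, hh, b, hb, rfl⟩ := Set.mem_add.mp hx
    refine Set.mem_add.mpr ⟨-h, ?_, -b, ?_, by abel⟩
    · have h1 : -h ∈ -(convexHull ℝ S) := Set.neg_mem_neg.mpr hh
      have h2 : -(convexHull ℝ S) = convexHull ℝ (-S) := (convexHull_neg S).symm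
      rw [h2] at h1
      have h3 : -S = S := by
        ext y
        constructor
        · intro hy
          have := hSneg _ (Set.mem_neg.mp hy)
          simpa using this
        · intro hy
          exact Set.mem_neg.mpr (hSneg _ hy)
      rwa [h3] at h1
    · rw [mem_closedBall_zero_iff] at hb ⊢
      rwa [norm_neg]
  · -- the code
    let code : EuclideanSpace ℝ (Fin n) → 𝒞 × 𝒞 := fun y => (Ψ (pos e y), Ψ (neg e y))
    let C0 : Set (EuclideanSpace ℝ (Fin n)) := polarSet {x : EuclideanSpace ℝ (Fin n) | ∀ i, |x i| ≤ 1}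
    let rep : 𝒞 × 𝒞 → EuclideanSpace ℝ (Fin n) := fun c =>
      if h : ∃ y ∈ C0, code y = c then h.choose else 0
    have hrep : ∀ y ∈ C0, rep (code y) ∈ C0 ∧ code (rep (code y)) = code y := by
      intro y hy
      have h : ∃ y' ∈ C0, code y' = code y := ⟨y, hy, rfl⟩
      have e1 : rep (code y) = h.choose := dif_pos h
      rw [e1]
      exact ⟨h.choose_spec.1, h.choose_spec.2⟩
    refine ⟨Finset.univ.image rep, ?_, ?_, ?_⟩
    · intro y hy
      obtain ⟨hr1, hr2⟩ := hrep y hy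
      set y' := rep (code y) with hy'
      have hl1 : ∑ i, |y i| ≤ 1 := l1_of_polar hy
      have hl1' : ∑ i, |y' i| ≤ 1 := l1_of_polar hr1
      rw [Set.mem_iUnion₂]
      refine ⟨y', Finset.mem_image_of_mem _ (Finset.mem_univ _), ?_⟩
      rw [Set.mem_vadd_set]
      refine ⟨y - y', ?_, by simp⟩
      rw [Set.mem_smul_set]
      refine ⟨a • (y - y'), ?_, by rw [smul_smul, inv_mul_cancel₀ ha0.ne', one_smul]⟩
      -- inner products with the generators
      have hgen : ∀ u, |inner ℝ (toE e (φ u)) (y - y')| ≤ 2 * τ := by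
        intro u
        rw [inner_sub_right, inner_split, inner_split]
        have hp := hΨ (pos e y) (pos e y') (pos_nonneg e y) (sum_pos_le e y hl1) (pos_nonneg e y')
          (sum_pos_le e y' hl1') (congrArg Prod.fst hr2).symm u
        have hm := hΨ (neg e y) (neg e y') (neg_nonneg e y) (sum_neg_le e y hl1) (neg_nonneg e y')
          (sum_neg_le e y' hl1') (congrArg Prod.snd hr2).symm u
        have hp' := abs_le.mp hp
        have hm' := abs_le.mp hm
        rw [abs_le]
        constructor <;> linarith [hp'.1, hp'.2, hm'.1, hm'.2]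
      intro k hk
      obtain ⟨h, hh, b, hb, rfl⟩ := Set.mem_add.mp hk
      have hball : inner ℝ b (a • (y - y')) ≤ 1 / 2 := by
        rw [mem_closedBall_zero_iff] at hb
        have hny : ‖y‖ ≤ 1 := (norm_le_l1 y).trans hl1
        have hny' : ‖y'‖ ≤ 1 := (norm_le_l1 y').trans hl1'
        have hnd : ‖y - y'‖ ≤ 2 := (norm_sub_le y y').trans (by linarith)
        calc inner ℝ b (a • (y - y')) ≤ ‖b‖ * ‖a • (y - y')‖ := real_inner_le_norm _ _
          _ ≤ η * (a * 2) := by
              rw [norm_smul, Real.norm_of_nonneg ha0.le]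
              gcongr
          _ = 1 / 2 := by
              show 1 / (4 * a) * (a * 2) = 1 / 2
              field_simp; norm_num
      have hhull : inner ℝ h (a • (y - y')) ≤ 1 / 2 := by
        have hconv : Convex ℝ {h : EuclideanSpace ℝ (Fin n) | inner ℝ h (a • (y - y')) ≤ 1 / 2} := by
          intro p hp q hq s t hs ht hst
          simp only [Set.mem_ofPred_eq] at hp hq ⊢
          rw [inner_add_left, real_inner_smul_left, real_inner_smul_left]
          calc s * inner ℝ p (a • (y - y')) + t * inner ℝ q (a • (y - y')) ≤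
                s * (1 / 2) + t * (1 / 2) := by gcongr
            _ = 1 / 2 := by rw [← add_mul, hst, one_mul]
        have hsub : S ⊆ {h : EuclideanSpace ℝ (Fin n) | inner ℝ h (a • (y - y')) ≤ 1 / 2} := by
          have hb6 : a * (3 * (2 * τ)) ≤ 1 / 2 := by
            have := mul_le_mul_of_nonneg_left hτ ha0.le
            have e2 : a * (1 / (2 * a)) = 1 / 2 := by field_simp
            rw [e2] at this
            linarith
          rintro x (⟨u, rfl⟩ | ⟨u, rfl⟩)
          · simp only [Set.mem_ofPred_eq]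
            rw [real_inner_smul_right, real_inner_smul_left]
            have := (abs_le.mp (hgen u)).2
            calc a * (3 * inner ℝ (toE e (φ u)) (y - y')) ≤ a * (3 * (2 * τ)) := by gcongr
              _ ≤ 1 / 2 := hb6
          · simp only [Set.mem_ofPred_eq]
            rw [real_inner_smul_right, inner_neg_left, real_inner_smul_left]
            have := (abs_le.mp (hgen u)).1
            calc a * -(3 * inner ℝ (toE e (φ u)) (y - y')) ≤ a * (3 * (2 * τ)) := by
                  apply mul_le_mul_of_nonneg_left _ ha0.le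
                  linarith
              _ ≤ 1 / 2 := hb6
        exact convexHull_min hsub hconv hh
      rw [inner_add_left]
      linarith
    · refine Finset.card_image_le.trans ?_
      rw [Finset.card_univ, Fintype.card_prod, sq]
    · intro t₂ ht₂
      have hmem : ∀ u : ι, ∃ x ∈ t₂, ∀ i, |(3 * φ u (e.symm i)) - x i| ≤ 1 := by
        intro u
        have hK : (3:ℝ) • toE e (φ u) ∈ K := by
          refine Set.mem_add.mpr ⟨(3:ℝ) • toE e (φ u), subset_convexHull ℝ S (Or.inl ⟨u, rfl⟩), 0, ?_, by simp⟩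
          rw [mem_closedBall_zero_iff, norm_zero]; exact hη.le
        have h1 := ht₂ hK
        rw [Set.mem_iUnion₂] at h1
        obtain ⟨x, hx, hx2⟩ := h1
        rw [Set.mem_vadd_set] at hx2
        obtain ⟨z, hz, hz2⟩ := hx2
        refine ⟨x, hx, fun i => ?_⟩
        have e3 : z i = 3 * φ u (e.symm i) - x i := by
          have : (x +ᵥ z) i = ((3:ℝ) • toE e (φ u)) i := by rw [hz2]
          simp only [vadd_eq_add, PiLp.add_apply, PiLp.smul_apply, smul_eq_mul, toE_apply] at this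
          linarith
        rw [← e3]; exact hz i
      choose f hf1 hf2 using hmem
      refine Finset.card_le_card_of_injOn f (fun u _ => hf1 u) ?_
      intro u hu u' hu' huu'
      by_contra hne
      obtain ⟨x, hx⟩ := hU u hu u' hu' hne
      have h1 := abs_le.mp (hf2 u (e x))
      have h2 := abs_le.mp (hf2 u' (e x))
      rw [huu'] at h1
      rw [Equiv.symm_apply_apply] at h1 h2
      have h3 : |φ u x - φ u' x| ≤ 2 / 3 := by
        rw [abs_le]; constructor <;> linarith [h1.1, h1.2, h2.1, h2.2]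
      linarith

end Crest.Agent.EntDual
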