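import Mathlib

/-!
Row 71 (S0094): the final numerics.
-/

namespace Crest.Agent.EntDual

open Finset

/-- numbers: for `n, s, D, P` fixed and `16 * b * s ≤ n`, the code beats the number of codes for large `m`. -/
theorem numbers (n s : ℕ) (hn : 0 < n) (b : ℝ) (hb : 1 ≤ b) (hs : 16 * b * s ≤ n) (D Q : ℕ) :
    ∃ m : ℕ, 1 ≤ m ∧ ∀ Ucard : ℕ, m ^ n ≤ Ucard * (2 ^ n * m ^ (n / 2)) →
      b * Real.log (((((n * m + 1) ^ s * (D + 1) ^ Q) ^ 2 : ℕ)) : ℝ) < Real.log Ucard := by
  set C : ℝ := 2 * b * (s * Real.log (n + 1) + Q * Real.log (D + 1)) with hC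
  set K : ℝ := (8 / 3) * (C + n * Real.log 2) with hK
  have hlim : Filter.Tendsto (fun m : ℕ => Real.log (m : ℝ)) Filter.atTop Filter.atTop :=
    Real.tendsto_log_atTop.comp tendsto_natCast_atTop_atTop
  obtain ⟨m, hm1, hmK⟩ : ∃ m : ℕ, 1 ≤ m ∧ K < Real.log (m : ℝ) := by
    have h1 := (hlim.eventually_gt_atTop K).and (Filter.eventually_ge_atTop 1)
    obtain ⟨m, h2, h3⟩ := h1.exists
    exact ⟨m, h3, h2⟩
  refine ⟨m, hm1, fun Ucard hU => ?_⟩
  have hmpos : (0 : ℝ) < m := by exact_mod_cast hm1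
  have hm1' : (1 : ℝ) ≤ m := by exact_mod_cast hm1
  have hlogm : 0 ≤ Real.log (m : ℝ) := Real.log_nonneg hm1'
  have hnpos : (1 : ℝ) ≤ n := by exact_mod_cast hn
  have hUpos : 0 < Ucard := by
    rcases Nat.eq_zero_or_pos Ucard with h | h
    · exfalso
      rw [h, zero_mul] at hU
      have : 0 < m ^ n := Nat.pow_pos hm1
      omega
    · exact h
  have hUpos' : (0 : ℝ) < Ucard := by exact_mod_cast hUpos
  -- lower bound for `log Ucard`
  have h1 : (n : ℝ) * Real.log m ≤ Real.log Ucard + (n * Real.log 2 + ((n / 2 : ℕ) : ℝ) * Real.log m) := by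
    have h2 : ((m : ℝ) ^ n) ≤ (Ucard : ℝ) * ((2 : ℝ) ^ n * (m : ℝ) ^ (n / 2)) := by
      exact_mod_cast hU
    have h3 := Real.log_le_log (by positivity) h2
    rw [Real.log_pow, Real.log_mul hUpos'.ne' (by positivity),
      Real.log_mul (by positivity) (by positivity), Real.log_pow, Real.log_pow] at h3
    exact h3
  have h2 : ((n / 2 : ℕ) : ℝ) ≤ (n : ℝ) / 2 := by
    have := Nat.cast_div_le (α := ℝ) (m := n) (n := 2)
    simpa using this
  have h3 : ((n / 2 : ℕ) : ℝ) * Real.log m ≤ (n : ℝ) / 2 * Real.log m :=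
    mul_le_mul_of_nonneg_right h2 hlogm
  -- upper bound for the left-hand side
  have h4 : Real.log (((((n * m + 1) ^ s * (D + 1) ^ Q) ^ 2 : ℕ)) : ℝ) =
      2 * (s * Real.log ((n : ℝ) * m + 1) + Q * Real.log ((D : ℝ) + 1)) := by
    push_cast
    rw [Real.log_pow, Real.log_mul (by positivity) (by positivity), Real.log_pow, Real.log_pow]
    push_cast
    ring
  have h5 : Real.log ((n : ℝ) * m + 1) ≤ Real.log (n + 1) + Real.log m := by
    rw [← Real.log_mul (by positivity) hmpos.ne']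
    apply Real.log_le_log (by positivity)
    nlinarith
  have hs0 : (0 : ℝ) ≤ s := Nat.cast_nonneg s
  have hb0 : (0 : ℝ) ≤ b := by linarith
  have h6 : b * Real.log (((((n * m + 1) ^ s * (D + 1) ^ Q) ^ 2 : ℕ)) : ℝ) ≤
      2 * b * s * Real.log m + C := by
    rw [h4, hC]
    have h7 : b * s * Real.log ((n : ℝ) * m + 1) ≤ b * s * (Real.log (n + 1) + Real.log m) :=
      mul_le_mul_of_nonneg_left h5 (by positivity)
    nlinarith
  have h8 : 2 * b * s * Real.log m ≤ (n : ℝ) / 8 * Real.log m := by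
    apply mul_le_mul_of_nonneg_right _ hlogm
    linarith
  have h9 : Real.log m ≤ (n : ℝ) * Real.log m := by nlinarith
  have h10 : (3 / 8 : ℝ) * K = C + n * Real.log 2 := by rw [hK]; ring
  nlinarith

end Crest.Agent.EntDual
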