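import Crest.Agent.EntDual.Base
import Crest.Agent.EntDual.Code
import Crest.Agent.EntDual.Geom
import Crest.Agent.EntDual.Enc
import Crest.Agent.EntDual.Numbers

namespace Crest.Agent.EntDual

open Finset Pointwise Crest.AnalysisR

theorem final (a b : ℝ) (ha : 1 ≤ a) (hb : 1 ≤ b) :
    ∃ n : ℕ, 0 < n ∧ ∃ K : Set (EuclideanSpace ℝ (Fin n)),
      Convex ℝ K ∧ IsCompact K ∧ (interior K).Nonempty ∧ (∀ x ∈ K, -x ∈ K) ∧
      ∃ t₁ : Finset (EuclideanSpace ℝ (Fin n)),
        polarSet {x : EuclideanSpace ℝ (Fin n) | ∀ i, |x i| ≤ 1} ⊆ ⋃ y ∈ t₁, (y +ᵥ a⁻¹ • polarSet K) ∧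
        ∀ t₂ : Finset (EuclideanSpace ℝ (Fin n)),
          K ⊆ ⋃ x ∈ t₂, (x +ᵥ {z : EuclideanSpace ℝ (Fin n) | ∀ i, |z i| ≤ 1}) →
          b * Real.log t₁.card < Real.log t₂.card := by
  classical
  have ha0 : (0 : ℝ) < a := by linarith
  have hb0 : (0 : ℝ) < b := by linarith
  obtain ⟨B, hB⟩ := exists_nat_gt (16 * b)
  have hB0 : (0 : ℝ) < B := by linarith
  have hB0' : 0 < B := by exact_mod_cast hB0
  obtain ⟨z, i1, i2, i3, w, hw, hK, hT⟩ := baseExists B (1 / (48 * a)) (by positivity)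
  set n := Fintype.card z with hn
  have hn0 : 0 < n := Fintype.card_pos
  set s := n / B with hs
  have hsn : 16 * b * s ≤ n := by
    have h1 : ((B * s : ℕ) : ℝ) ≤ n := by exact_mod_cast Nat.mul_div_le n B
    push_cast at h1
    have h2 : 16 * b * s ≤ B * s := mul_le_mul_of_nonneg_right hB.le (Nat.cast_nonneg _)
    linarith
  set Q := Fintype.card (Finset z × (Fin s → Bool)) with hQ
  obtain ⟨D, hD⟩ := exists_nat_gt ((Q : ℝ) * (24 * a))
  have hD0 : (0 : ℝ) < D := by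
    have : (0 : ℝ) ≤ (Q : ℝ) * (24 * a) := by positivity
    linarith
  have hD0' : 0 < D := by exact_mod_cast hD0
  obtain ⟨m, hm1, hm⟩ := numbers n s hn0 b hb hsn D Q
  obtain ⟨U, hU, hUc⟩ := code_exists z m hm1
  have hT' : ∀ ν : Finset z × (z → Fin m) → ℝ, (∀ c, 0 ≤ ν c) → ∑ c, ν c ≤ 1 →
      ∃ S : Finset (z × Fin m), S.card ≤ s ∧
        ∀ u : z → Fin m,
          |∑ c, ν c * (w c.1 (univ.filter (fun j => c.2 j = u j))
            - w c.1 (univ.filter (fun j => c.2 j = u j ∧ (j, u j) ∈ S)))| ≤ 1 / (48 * a) := by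
    intro ν h1 h2
    obtain ⟨S, hS, h⟩ := hT m ν h1 h2
    refine ⟨S, ?_, h⟩
    rw [hs, Nat.le_div_iff_mul_le hB0', mul_comm]
    exact hS
  obtain ⟨Ψ, hΨ⟩ := encode z m s D hD0' (1 / (48 * a)) (by positivity) w hw hT'
  haveI : Nonempty (Fin m) := ⟨⟨0, hm1⟩⟩
  haveI : Nonempty ((Fin s → Option (z × Fin m)) × (Finset z × (Fin s → Bool) → Fin (D + 1))) :=
    ⟨(fun _ => none, fun _ => 0)⟩
  have hτ' : 6 * (2 * (1 / (48 * a)) + (Q : ℝ) / D) ≤ 1 / (2 * a) := by
    have h1 : (Q : ℝ) / D ≤ 1 / (24 * a) := by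
      rw [div_le_div_iff₀ hD0 (by positivity)]
      linarith
    have h2 : 2 * (1 / (48 * a)) = 1 / (24 * a) := by field_simp; norm_num
    have h3 : 1 / (2 * a) = 12 * (1 / (24 * a)) := by field_simp; norm_num
    have h4 : 0 < 1 / (24 * a) := by positivity
    rw [h2, h3]
    linarith
  obtain ⟨N, hN, K, hK1, hK2, hK3, hK4, t₁, ht1, ht1c, ht2⟩ :=
    geom (X := Finset z × (z → Fin m)) (ι := z → Fin m)
      (fun u c => w c.1 (univ.filter (fun j => c.2 j = u j))) a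
      (2 * (1 / (48 * a)) + (Q : ℝ) / D) ha hτ' Ψ
      (fun ν ν' h1 h2 h3 h4 h5 u => hΨ ν ν' h1 h2 h3 h4 h5 u) U
      (by
        intro u hu u' hu' hne
        have h1 := hU u hu u' hu' hne
        set S := univ.filter (fun j => u j = u' j) with hS
        obtain ⟨h2, h3⟩ := hK S h1
        refine ⟨(S, u), ?_⟩
        have h4 : univ.filter (fun j => u j = u j) = (univ : Finset z) := by simp
        show 1 ≤ |w S (univ.filter (fun j => u j = u j)) - w S (univ.filter (fun j => u j = u' j))|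
        rw [h4, h2, ← hS, h3]
        norm_num)
  refine ⟨N, hN, K, hK1, hK2, hK3, hK4, t₁, ht1, fun t₂ h => ?_⟩
  have h1 := ht2 t₂ h
  have h2 := hm U.card hUc
  have hcard : Fintype.card ((Fin s → Option (z × Fin m)) × (Finset z × (Fin s → Bool) → Fin (D + 1)))
      = (n * m + 1) ^ s * (D + 1) ^ Q := by
    rw [Fintype.card_prod, Fintype.card_fun, Fintype.card_fun, Fintype.card_option, Fintype.card_prod,
      Fintype.card_fin, Fintype.card_fin, Fintype.card_fin]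
  rw [hcard] at ht1c
  have hpos : 0 < ((n * m + 1) ^ s * (D + 1) ^ Q) ^ 2 := by positivity
  have h3 : Real.log (t₁.card : ℝ) ≤ Real.log ((((n * m + 1) ^ s * (D + 1) ^ Q) ^ 2 : ℕ) : ℝ) := by
    rcases Nat.eq_zero_or_pos t₁.card with h0 | h0
    · rw [h0]
      simp only [Nat.cast_zero, Real.log_zero]
      exact Real.log_natCast_nonneg _
    · exact Real.log_le_log (by exact_mod_cast h0) (by exact_mod_cast ht1c)
  have hU0 : 0 < U.card := by
    rcases Nat.eq_zero_or_pos U.card with h0 | h0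
    · exfalso
      rw [h0] at hUc
      have : 0 < m ^ n := pow_pos hm1 n
      simp at hUc
      omega
    · exact h0
  have h4 : Real.log (U.card : ℝ) ≤ Real.log (t₂.card : ℝ) :=
    Real.log_le_log (by exact_mod_cast hU0) (by exact_mod_cast h1)
  calc b * Real.log t₁.card ≤ b * Real.log ((((n * m + 1) ^ s * (D + 1) ^ Q) ^ 2 : ℕ) : ℝ) :=
        mul_le_mul_of_nonneg_left h3 hb0.le
    _ < Real.log U.card := h2
    _ ≤ _ := h4

end Crest.Agent.EntDual
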