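import Crest.Agent.EntDual.Defs

namespace Crest.Agent.EntDual

/-- States of the recursion: the pair `(N l, κ l)`. -/
def SeqState : Type := {p : ℕ × ℝ // 1 ≤ p.1 ∧ 0 < p.2}

/-- the gap parameter attached to a state -/
def seqG (H B : ℕ) (s : SeqState) : ℕ := H * B * (H ^ 2 * s.1.1) + 1

theorem exists_seqI (H B : ℕ) (s : SeqState) :
    ∃ I : ℕ, 1 ≤ I ∧ (1 - 1 / (seqG H B s : ℝ)) ^ I ≤ s.1.2 / 2 := by
  have hg : (1 : ℝ) ≤ (seqG H B s : ℝ) := by
    have : 1 ≤ seqG H B s := by unfold seqG; omega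
    exact_mod_cast this
  have h0 : 0 ≤ 1 - 1 / (seqG H B s : ℝ) := by
    have : 1 / (seqG H B s : ℝ) ≤ 1 := by
      rw [div_le_one (by linarith)]; exact hg
    linarith
  have h1 : 1 - 1 / (seqG H B s : ℝ) < 1 := by
    have : 0 < 1 / (seqG H B s : ℝ) := by positivity
    linarith
  have hκ : 0 < s.1.2 / 2 := by have := s.2.2; linarith
  obtain ⟨n, hn⟩ := exists_pow_lt_of_lt_one hκ h1
  refine ⟨n + 1, by omega, ?_⟩
  have h2 : (1 - 1 / (seqG H B s : ℝ)) ^ (n + 1) ≤ (1 - 1 / (seqG H B s : ℝ)) ^ n :=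
    pow_le_pow_of_le_one h0 h1.le (by omega)
  linarith

/-- number of sets used at a state -/
noncomputable def seqI (H B : ℕ) (s : SeqState) : ℕ := (exists_seqI H B s).choose

theorem seqI_spec (H B : ℕ) (s : SeqState) :
    1 ≤ seqI H B s ∧ (1 - 1 / (seqG H B s : ℝ)) ^ (seqI H B s) ≤ s.1.2 / 2 :=
  (exists_seqI H B s).choose_spec

/-- multiplicity at a state -/
noncomputable def seqM (H B : ℕ) (s : SeqState) : ℕ := H ^ 2 * (s.1.1 * seqI H B s) + 1

/-- next state -/
noncomputable def seqNext (H B : ℕ) (s : SeqState) : SeqState :=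
  ⟨(s.1.1 * seqM H B s, s.1.2 / (2 * seqI H B s)), by
    refine ⟨?_, ?_⟩
    · have h1 := s.2.1
      have h2 : 1 ≤ seqM H B s := by unfold seqM; omega
      exact Nat.succ_le_of_lt (Nat.mul_pos h1 h2)
    · have h1 := s.2.2
      have h2 : (0 : ℝ) < (seqI H B s : ℝ) := by
        have := (seqI_spec H B s).1
        exact_mod_cast this
      have : (0 : ℝ) < 2 * (seqI H B s : ℝ) := by linarith
      exact div_pos h1 this⟩

/-- the sequence of states -/
noncomputable def seqS (H B : ℕ) : ℕ → SeqState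
  | 0 => ⟨(1, 1 / 2), by norm_num⟩
  | (l + 1) => seqNext H B (seqS H B l)

/-- Existence of the parameters (recursion on the level `l`: given `N l, κ l` choose
`g l := H*B*H^2*N l + 1`, then `I l ≥ 1` with `(1 - 1/g)^I ≤ κ l/2` (as `0 ≤ 1 - 1/g < 1`), then
`M l := H^2 * (N l * I l) + 1`, `N (l+1) = N l * M l`, `κ (l+1) = κ l / (2 * I l)`). -/
theorem exists_params (H B : ℕ) : Nonempty (Params H B) := by
  refine ⟨{
    g := fun l => seqG H B (seqS H B l)
    I := fun l => seqI H B (seqS H B l)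
    M := fun l => seqM H B (seqS H B l)
    N := fun l => (seqS H B l).1.1
    κ := fun l => (seqS H B l).1.2
    N0 := rfl
    κ0 := rfl
    κpos := fun l => (seqS H B l).2.2
    Ipos := fun l => (seqI_spec H B (seqS H B l)).1
    Mpos := fun l => by unfold seqM; omega
    Npos := fun l => (seqS H B l).2.1
    gpos := fun l => by unfold seqG; omega
    hpow := fun l => (seqI_spec H B (seqS H B l)).2
    hκ := ?_
    hN := fun l => rfl
    hM := fun l => by unfold seqM; omega
    hg := fun l => by unfold seqG; omega }⟩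
  intro l
  have h1 : (0 : ℝ) < (seqI H B (seqS H B l) : ℝ) := by
    have := (seqI_spec H B (seqS H B l)).1
    exact_mod_cast this
  change (seqS H B l).1.2 / (2 * (seqI H B (seqS H B l) : ℝ)) * (2 * (seqI H B (seqS H B l) : ℝ))
    = (seqS H B l).1.2
  exact div_mul_cancel₀ _ (by linarith)

end Crest.Agent.EntDual
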